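import Vale.Agent.P210.R2.H582.One
import Vale.Agent.P210.R2.H265.Jet
import Vale.Agent.P210.R2.H196.Geo
import Vale.Agent.P210.R2.H53.Step
import Vale.Agent.P210.R2.H204.Svi
import Vale.Agent.P210.R2.H973.Ricf
import Vale.Agent.P210.R2.H912.Hess
import Vale.Agent.P210.R2.H401.CmpHolds
import Vale.Agent.P210.R2.H53.Lin
import Vale.Agent.P210.R2.H912.Fin

/-! All modules together: ONE holds, hence the theorem (FINAL). -/

set_option maxSynthPendingDepth 3

namespace Vale.Agent.P210.R2.H582

open Vale.Agent.P210.R2.H53

theorem step_all : Stmt.STEP := step_holds H265.jet_holds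

theorem one_all : Stmt.ONE :=
  one_of lin_holds H401.cmp_holds (H912.hess_of H265.jet_holds H196.geo step_all) H196.geo
    H265.jet_holds (H973.ricf_of_geo H196.geo)
    (Vale.Agent.P210.H204.svi_holds step_all H196.geo H265.jet_holds)

theorem final_all : Stmt.FINAL := H912.final_of_one one_all

end Vale.Agent.P210.R2.H582
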