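import Vale.Agent.P210.R2.H196.Haus

open Set Filter MeasureTheory Bundle Manifold
open scoped Topology Manifold ContDiff ENNReal NNReal

set_option maxSynthPendingDepth 3

noncomputable section

namespace Vale.Agent.P210.R2.H582

open Measure Vale.Agent.P210.R2.H196

theorem haus_core (E : Type) [NormedAddCommGroup E] [NormedSpace ℝ E] [FiniteDimensional ℝ E]
    (M : Type) [MetricSpace M] [ChartedSpace E M]
    [RiemannianBundle (fun x : M => TangentSpace 𝓘(ℝ, E) x)]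
    [IsManifold 𝓘(ℝ, E) 1 M]
    [IsContinuousRiemannianBundle E (fun x : M => TangentSpace 𝓘(ℝ, E) x)]
    [IsRiemannianManifold 𝓘(ℝ, E) M] [ProperSpace M]
    [MeasurableSpace M] [BorelSpace M] (x : M) (s : ℝ) (hs : 0 < s) :
    0 < (Measure.hausdorffMeasure (Module.finrank ℝ E : ℝ) : Measure M) (Metric.closedBall x s) ∧
      (Measure.hausdorffMeasure (Module.finrank ℝ E : ℝ) : Measure M) (Metric.closedBall x s) < ⊤ := by
  borelize E
  have hH : IsAddHaarMeasure (Measure.hausdorffMeasure (Module.finrank ℝ E : ℝ) : Measure E) :=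
    isAddHaarMeasure_hausdorffMeasure (E := E)
  set n : ℕ := Module.finrank ℝ E with hn
  have hn0 : (0 : ℝ) ≤ n := Nat.cast_nonneg n
  have key : ∀ x₀ : M, ∃ V ∈ 𝓝 x₀, ∃ C₁ C₂ : ℝ≥0, V ⊆ (extChartAt 𝓘(ℝ, E) x₀).source ∧
      (∀ y ∈ V, ∀ z ∈ V, edist y z ≤ C₁ * edist (extChartAt 𝓘(ℝ, E) x₀ y)
        (extChartAt 𝓘(ℝ, E) x₀ z)) ∧
      (∀ y ∈ V, ∀ z ∈ V, edist (extChartAt 𝓘(ℝ, E) x₀ y)
        (extChartAt 𝓘(ℝ, E) x₀ z) ≤ C₂ * edist y z) := by
    intro x₀
    obtain ⟨C₁, -, h1⟩ := riemannianEDist_le_two 𝓘(ℝ, E) x₀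
    obtain ⟨C₂, -, h2⟩ := edist_extChartAt_le_two 𝓘(ℝ, E) x₀
    have h12 := h1.and h2
    rw [nhds_prod_eq] at h12
    obtain ⟨t, ht, hts⟩ := mem_prod_self_iff.1 h12
    refine ⟨t ∩ (extChartAt 𝓘(ℝ, E) x₀).source,
      inter_mem ht (extChartAt_source_mem_nhds x₀), C₁, C₂, inter_subset_right, ?_, ?_⟩
    · intro y hy z hz
      rw [IsRiemannianManifold.out (I := 𝓘(ℝ, E)) y z]
      exact (hts (mk_mem_prod hy.1 hz.1)).1
    · intro y hy z hz
      exact (hts (mk_mem_prod hy.1 hz.1)).2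
  constructor
  · obtain ⟨V, hV, C₁, C₂, hVs, h1, h2⟩ := key x
    set φ := extChartAt 𝓘(ℝ, E) x with hφ
    set S := V ∩ Metric.closedBall x s with hS
    have hSn : S ∈ 𝓝 x := inter_mem hV (Metric.closedBall_mem_nhds x hs)
    have hL : LipschitzOnWith C₂ φ S := fun y hy z hz => h2 y hy.1 z hz.1
    have hle := hL.hausdorffMeasure_image_le hn0
    have hpos : 0 < (Measure.hausdorffMeasure (n : ℝ) : Measure E)
        (φ '' S) := measure_pos_of_mem_nhds _ (extChartAt_image_nhds_mem_nhds_of_boundaryless hSn)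
    have h3 : 0 < (Measure.hausdorffMeasure (n : ℝ) : Measure M) S := by
      rcases eq_or_ne ((Measure.hausdorffMeasure (n : ℝ) : Measure M) S) 0 with h | h
      · rw [h, mul_zero] at hle
        exact absurd hpos (not_lt.2 hle)
      · exact h.bot_lt
    exact h3.trans_le (measure_mono inter_subset_right)
  · refine (isCompact_closedBall x s).measure_lt_top_of_nhdsWithin fun x₀ _ => ?_
    obtain ⟨V, hV, C₁, C₂, hVs, h1, h2⟩ := key x₀
    set φ := extChartAt 𝓘(ℝ, E) x₀ with hφ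
    have hc : ContinuousAt φ x₀ := continuousAt_extChartAt x₀
    have hB : φ ⁻¹' (Metric.ball (φ x₀) 1) ∈ 𝓝 x₀ := hc (Metric.ball_mem_nhds _ one_pos)
    set S := V ∩ φ ⁻¹' (Metric.ball (φ x₀) 1) with hS
    refine ⟨S, mem_nhdsWithin_of_mem_nhds (inter_mem hV hB), ?_⟩
    have him : φ.symm '' (φ '' S) = S := by
      rw [← image_comp]
      refine (image_congr fun y hy => ?_).trans (image_id _)
      exact φ.left_inv (hVs hy.1)
    have hL : LipschitzOnWith C₁ φ.symm (φ '' S) := by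
      rintro _ ⟨y, hy, rfl⟩ _ ⟨z, hz, rfl⟩
      rw [φ.left_inv (hVs hy.1), φ.left_inv (hVs hz.1)]
      exact h1 y hy.1 z hz.1
    have hle := hL.hausdorffMeasure_image_le hn0
    rw [him] at hle
    refine hle.trans_lt (ENNReal.mul_lt_top (ENNReal.rpow_lt_top_of_nonneg hn0
      ENNReal.coe_ne_top) ?_)
    refine (measure_mono (?_ : φ '' S ⊆ Metric.ball (φ x₀) 1)).trans_lt measure_ball_lt_top
    rintro _ ⟨y, hy, rfl⟩
    exact hy.2

/-- balls have positive finite Hausdorff measure, general model space -/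
theorem haus_gen (E : Type) [NormedAddCommGroup E] [NormedSpace ℝ E] [FiniteDimensional ℝ E]
    (M : Type) [MetricSpace M] [ChartedSpace E M]
    [RiemannianBundle (fun x : M => TangentSpace 𝓘(ℝ, E) x)]
    [IsManifold 𝓘(ℝ, E) ∞ M]
    [IsContMDiffRiemannianBundle 𝓘(ℝ, E) ∞ E (fun x : M => TangentSpace 𝓘(ℝ, E) x)]
    [IsRiemannianManifold 𝓘(ℝ, E) M] [ProperSpace M]
    [MeasurableSpace M] [BorelSpace M] (x : M) (s : ℝ) (hs : 0 < s) :
    0 < (Measure.hausdorffMeasure (Module.finrank ℝ E : ℝ) : Measure M) (Metric.closedBall x s) ∧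
      (Measure.hausdorffMeasure (Module.finrank ℝ E : ℝ) : Measure M)
        (Metric.closedBall x s) < ⊤ := by
  have : IsManifold 𝓘(ℝ, E) 1 M := IsManifold.of_le (n := ∞) (by simp)
  have : IsContinuousRiemannianBundle E (fun x : M => TangentSpace 𝓘(ℝ, E) x) := by
    obtain ⟨g, hg, h⟩ := IsContMDiffRiemannianBundle.exists_contMDiff
      (IB := 𝓘(ℝ, E)) (n := ∞) (F := E) (E := fun x : M => TangentSpace 𝓘(ℝ, E) x)
    exact ⟨g, hg.continuous, h⟩
  exact haus_core E M x s hs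

end Vale.Agent.P210.R2.H582
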