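import Mathlib.MeasureTheory.Integral.Average
import Mathlib.MeasureTheory.Integral.Prod
import Mathlib.MeasureTheory.Measure.Hausdorff
import Mathlib.Topology.MetricSpace.ProperSpace.Lemmas

open Set Filter MeasureTheory Metric
open scoped Topology ENNReal

namespace Vale.Agent.P210.R2.H582

/-- `z` is at fraction `s` of a minimal geodesic from `o` to `x`. -/
def Pt {X : Type} [MetricSpace X] (o x : X) (s : ℝ) (z : X) : Prop :=
  dist o z = s * dist o x ∧ dist z x = (1 - s) * dist o x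

/-- the product of the contraction constants -/
noncomputable def rr (κ x : ℝ) : ℝ :=
  ((1 - 8 * x / κ) * (1 - x) / (1 + 32 * x / κ)) * ((1 - x) * (1 - x)) * ((1 - 4 * x) * (1 - x))

theorem exists_small (n L : ℕ) {κ : ℝ} (hκ : 0 < κ) : ∃ x : ℝ, 0 < x ∧ x ≤ 1 / 8 ∧ x ≤ κ / 32 ∧
    (L : ℝ) / (L + 1) < (1 - x) * rr κ x ^ n := by
  have hc : ContinuousAt (fun x : ℝ => (1 - x) * rr κ x ^ n) 0 := by
    unfold rr
    have h1 : ContinuousAt (fun x : ℝ => 1 + 32 * x / κ) 0 := by fun_prop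
    have h2 : (1 + 32 * (0 : ℝ) / κ) ≠ 0 := by simp
    have h3 : ContinuousAt (fun x : ℝ => (1 - 8 * x / κ) * (1 - x) / (1 + 32 * x / κ)) 0 :=
      ContinuousAt.div (by fun_prop) h1 h2
    fun_prop (disch := assumption)
  have h0 : (L : ℝ) / (L + 1) < (1 - (0 : ℝ)) * rr κ 0 ^ n := by
    have : rr κ 0 = 1 := by simp [rr]
    rw [this]
    simp
    rw [div_lt_one (by positivity)]
    linarith
  have h1 : ∀ᶠ x in 𝓝 (0 : ℝ), (L : ℝ) / (L + 1) < (1 - x) * rr κ x ^ n :=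
    hc.eventually_const_lt h0
  have h2 : ∀ᶠ x in 𝓝[>] (0 : ℝ), (L : ℝ) / (L + 1) < (1 - x) * rr κ x ^ n :=
    h1.filter_mono nhdsWithin_le_nhds
  have h3 : ∀ᶠ x in 𝓝[>] (0 : ℝ), 0 < x := self_mem_nhdsWithin
  have h4 : ∀ᶠ x in 𝓝[>] (0 : ℝ), x ≤ 1 / 8 :=
    (eventually_le_nhds (by norm_num)).filter_mono nhdsWithin_le_nhds
  have h5 : ∀ᶠ x in 𝓝[>] (0 : ℝ), x ≤ κ / 32 :=
    (eventually_le_nhds (by positivity)).filter_mono nhdsWithin_le_nhds
  obtain ⟨x, hx⟩ := (h2.and (h3.and (h4.and h5))).exists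
  exact ⟨x, hx.2.1, hx.2.2.1, hx.2.2.2, hx.1⟩

section

variable {X : Type} [MetricSpace X]

theorem Pt.zero {o x z : X} (h : Pt o x 0 z) : z = o := by
  have := h.1
  rw [zero_mul, dist_eq_zero] at this
  exact this.symm

theorem Pt.one {o x z : X} (h : Pt o x 1 z) : z = x := by
  have := h.2
  rw [sub_self, zero_mul, dist_eq_zero] at this
  exact this

/-- measure comparison from the contraction property -/
theorem contr_measure [MeasurableSpace X] (μ : Measure X) (n : ℕ) {q : X} {t ε : ℝ}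
    (hlip : ∀ (S : Set X) (g : X → X) (Λ : ℝ), 0 ≤ Λ →
        (∀ x ∈ S, ∀ y ∈ S, dist (g x) (g y) ≤ Λ * dist x y) →
        μ (g '' S) ≤ ENNReal.ofReal Λ ^ n * μ S)
    (hcon : ∀ (o a b a' b' : X) (s : ℝ), s ∈ Ioc (0 : ℝ) 1 → dist o q ≤ 4 * t → dist a q ≤ 4 * t →
        dist b q ≤ 4 * t → Pt o a s a' → Pt o b s b' → s * (1 - ε) * dist a b ≤ dist a' b')
    (hε : ε < 1) {o : X} {s : ℝ} (hs : s ∈ Ioc (0 : ℝ) 1) (ho : dist o q ≤ 4 * t)
    {E E' : Set X} (hE : ∀ x ∈ E, dist x q ≤ 4 * t) (hEE : ∀ x ∈ E, ∃ x' ∈ E', Pt o x s x') :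
    μ E ≤ ENNReal.ofReal (1 / (s * (1 - ε))) ^ n * μ E' := by
  classical
  have hpos : 0 < s * (1 - ε) := mul_pos hs.1 (by linarith)
  let g : X → X := fun x' => if h : ∃ x ∈ E, Pt o x s x' then h.choose else x'
  let S : Set X := {x' | x' ∈ E' ∧ ∃ x ∈ E, Pt o x s x'}
  have hg : ∀ x' ∈ S, g x' ∈ E ∧ Pt o (g x') s x' := by
    intro x' hx'
    have h := hx'.2
    have : g x' = h.choose := by simp only [g]; rw [dif_pos h]
    rw [this]
    exact h.choose_spec
  have h1 := hlip S g (1 / (s * (1 - ε))) (by positivity) (by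
    intro x hx y hy
    have hx1 := hg x hx
    have hy1 := hg y hy
    have := hcon o (g x) (g y) x y s hs ho (hE _ hx1.1) (hE _ hy1.1) hx1.2 hy1.2
    rw [div_mul_eq_mul_div, one_mul, le_div_iff₀ hpos]
    linarith)
  have h2 : E ⊆ g '' S := by
    intro x hx
    obtain ⟨x', hx', hpt⟩ := hEE x hx
    have hS : x' ∈ S := ⟨hx', x, hx, hpt⟩
    refine ⟨x', hS, ?_⟩
    have hx1 := hg x' hS
    have := hcon o (g x') x x' x' s hs ho (hE _ hx1.1) (hE _ hx) hx1.2 hpt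
    rw [dist_self] at this
    have h3 : dist (g x') x ≤ 0 := by
      by_contra hne
      rw [not_le] at hne
      have := mul_pos hpos hne
      linarith
    exact dist_le_zero.1 h3
  calc μ E ≤ μ (g '' S) := measure_mono h2
    _ ≤ ENNReal.ofReal (1 / (s * (1 - ε))) ^ n * μ S := h1
    _ ≤ _ := by gcongr; exact fun x hx => hx.1

/-- the data of one apex -/
structure Apex (X : Type) [MetricSpace X] (κ x t : ℝ) (q p : X) : Prop where
  hκ : 0 < κ
  hκ1 : κ ≤ 1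
  hx : 0 < x
  hx8 : x ≤ 1 / 8
  hxκ : x ≤ κ / 32
  ht : 0 < t
  hgeo : ∀ (x y : X) (s : ℝ), s ∈ Icc (0 : ℝ) 1 → ∃ z, Pt x y s z
  hcon : ∀ (o a b a' b' : X) (s : ℝ), s ∈ Ioc (0 : ℝ) 1 → dist o q ≤ 4 * t → dist a q ≤ 4 * t →
        dist b q ≤ 4 * t → Pt o a s a' → Pt o b s b' → s * (1 - x) * dist a b ≤ dist a' b'
  hp1 : κ * t / 2 ≤ dist p q
  hp2 : dist p q ≤ t

/-- the set of points which are extendable -/
def W1 (κ x t : ℝ) (q p : X) : Set X :=
  {w | ∃ w', dist w' q ≤ κ * t / 4 - 2 * x * t ∧ Pt p w' (1 - x) w}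

variable {κ x t : ℝ} {q p : X}

theorem Apex.small (H : Apex X κ x t q p) : 0 < κ * t ∧ κ * t ≤ t ∧ 0 < x * t ∧
    32 * (x * t) ≤ κ * t := by
  have h1 := H.hκ
  have h2 := H.hκ1
  have h3 := H.hx
  have h4 := H.hxκ
  have h5 := H.ht
  refine ⟨by positivity, by nlinarith, by positivity, ?_⟩
  have : x * t ≤ κ / 32 * t := mul_le_mul_of_nonneg_right h4 h5.le
  linarith

theorem Apex.w1 (H : Apex X κ x t q p) {w w' : X} (h : dist w' q ≤ κ * t / 4 - 2 * x * t)
    (hw : Pt p w' (1 - x) w) : κ * t / 4 ≤ dist p w' ∧ dist p w' ≤ 2 * t ∧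
      dist w q ≤ κ * t / 4 := by
  obtain ⟨h1, h2, h3, h4⟩ := H.small
  have a1 := H.hp1
  have a2 := H.hp2
  have b1 := dist_triangle p w' q
  have b2 := dist_triangle p q w'
  have b3 := dist_triangle w w' q
  rw [dist_comm q w'] at b2
  have c2 := hw.2
  have e1 : dist p w' ≤ 2 * t := by linarith
  refine ⟨by linarith, e1, ?_⟩
  have : dist w w' ≤ 2 * x * t := by
    rw [c2]
    have := mul_le_mul_of_nonneg_left e1 H.hx.le
    linarith
  linarith

/-- uniqueness of the points of geodesics from `p` to `w` -/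
theorem Apex.uniq (H : Apex X κ x t q p) {w : X} (hw : w ∈ W1 κ x t q p) {s : ℝ}
    (hs : s ∈ Icc (0 : ℝ) 1) {z1 z2 : X} (h1 : Pt p w s z1) (h2 : Pt p w s z2) : z1 = z2 := by
  obtain ⟨w', hw', hpw⟩ := hw
  obtain ⟨e1, e2, e3⟩ := H.w1 hw' hpw
  obtain ⟨k1, k2, k3, k4⟩ := H.small
  have hx := H.hx
  have hx8 := H.hx8
  have ht := H.ht
  have hdp : 0 < dist p w' := by linarith
  set dp := dist p w' with hdpdef
  have hD : 0 < (1 - s * (1 - x)) * dp := by
    apply mul_pos _ hdp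
    have := mul_le_mul_of_nonneg_right hs.2 (by linarith : (0:ℝ) ≤ 1 - x)
    linarith
  have key : ∀ z, Pt p w s z → dist w' z = (1 - s * (1 - x)) * dp := by
    intro z hz
    have t1 := dist_triangle w' w z
    have t2 := dist_triangle p z w'
    rw [dist_comm w' w, hpw.2, dist_comm w z, hz.2, hpw.1] at t1
    rw [hz.1, hpw.1, dist_comm z w'] at t2
    apply le_antisymm
    · calc dist w' z ≤ _ := t1
        _ = _ := by rw [← hdpdef]; ring
    · rw [← hdpdef] at t2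
      linarith
  have d1 := key z1 h1
  have d2 := key z2 h2
  set s2 : ℝ := x * dp / ((1 - s * (1 - x)) * dp) with hs2
  have hs20 : 0 < s2 := by positivity
  have hs21 : s2 ≤ 1 := by
    rw [hs2, div_le_one hD]
    apply mul_le_mul_of_nonneg_right _ hdp.le
    have := mul_le_mul_of_nonneg_right hs.2 (by linarith : (0:ℝ) ≤ 1 - x)
    linarith
  have hmul : s2 * ((1 - s * (1 - x)) * dp) = x * dp := by
    rw [hs2]; exact div_mul_cancel₀ _ hD.ne'
  have key2 : ∀ z, Pt p w s z → Pt w' z s2 w := by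
    intro z hz
    refine ⟨?_, ?_⟩
    · rw [key z hz, hmul, dist_comm, hpw.2, ← hdpdef]; ring
    · rw [key z hz, dist_comm, hz.2, hpw.1, ← hdpdef]; linear_combination hmul
  have hq : ∀ z, Pt p w s z → dist z q ≤ 4 * t := by
    intro z hz
    have t1 := dist_triangle z w q
    have t3 : dist z w ≤ 2 * t := by
      rw [hz.2, hpw.1, ← hdpdef]
      have : (1 - s) * ((1 - x) * dp) ≤ 1 * (1 * dp) := by
        apply mul_le_mul (by linarith [hs.1]) _ (mul_nonneg (by linarith) hdp.le) (by norm_num)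
        apply mul_le_mul_of_nonneg_right (by linarith) hdp.le
      linarith
    linarith
  have hc := H.hcon w' z1 z2 w w s2 ⟨hs20, hs21⟩ (by linarith) (hq z1 h1) (hq z2 h2)
    (key2 z1 h1) (key2 z2 h2)
  rw [dist_self] at hc
  have hpos : 0 < s2 * (1 - x) := mul_pos hs20 (by linarith)
  have h3 : dist z1 z2 ≤ 0 := by
    by_contra hne
    rw [not_le] at hne
    have := mul_pos hpos hne
    linarith
  exact dist_le_zero.1 h3

/-- the points of the geodesic from `p` to an extendable point form a geodesic -/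
theorem Apex.geod (H : Apex X κ x t q p) {w : X} (hw : w ∈ W1 κ x t q p) (Φ : ℝ → X)
    (hΦ : ∀ s ∈ Icc (0 : ℝ) 1, Pt p w s (Φ s)) :
    ∀ s ∈ Icc (0 : ℝ) 1, ∀ s' ∈ Icc (0 : ℝ) 1, dist (Φ s) (Φ s') = |s - s'| * dist p w := by
  have main : ∀ s ∈ Icc (0 : ℝ) 1, ∀ s' ∈ Icc (0 : ℝ) 1, s ≤ s' →
      dist (Φ s) (Φ s') = |s - s'| * dist p w := by
    intro s hs s' hs' hss
    rcases hs'.1.eq_or_lt with h0 | h0
    · have : s = 0 := le_antisymm (by linarith) hs.1
      subst this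
      rw [← h0]
      simp
    · have hu0 : 0 ≤ s / s' := div_nonneg hs.1 h0.le
      have hu1 : s / s' ≤ 1 := (div_le_one h0).2 hss
      have hus : s / s' * s' = s := div_mul_cancel₀ _ h0.ne'
      obtain ⟨y, hy⟩ := H.hgeo p (Φ s') (s / s') ⟨hu0, hu1⟩
      have hs2 := hΦ s' hs'
      have e1 : dist p y = s * dist p w := by
        rw [hy.1, hs2.1, ← mul_assoc, hus]
      have e2 : dist y w = (1 - s) * dist p w := by
        have t1 := dist_triangle y (Φ s') w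
        have t2 := dist_triangle p y w
        rw [hy.2, hs2.1, hs2.2] at t1
        rw [e1] at t2
        apply le_antisymm _ (by linarith)
        calc dist y w ≤ _ := t1
          _ = _ := by linear_combination (- dist p w) * hus
      have e3 : y = Φ s := H.uniq hw hs ⟨e1, e2⟩ (hΦ s hs)
      rw [← e3, hy.2, hs2.1, abs_sub_comm, abs_of_nonneg (by linarith)]
      linear_combination (- dist p w) * hus
  intro s hs s' hs'
  rcases le_total s s' with h | h
  · exact main s hs s' hs' h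
  · rw [dist_comm, abs_sub_comm]
    exact main s' hs' s hs h

theorem isCompact_W1 [ProperSpace X] (H : Apex X κ x t q p) : IsCompact (W1 κ x t q p) := by
  have h1 : IsCompact ((closedBall q (κ * t / 4) ×ˢ closedBall q (κ * t / 4 - 2 * x * t) :
      Set (X × X)) ∩ {z | Pt p z.2 (1 - x) z.1}) := by
    apply ((isCompact_closedBall _ _).prod (isCompact_closedBall _ _)).inter_right
    unfold Pt
    apply IsClosed.inter
    · exact isClosed_eq (by fun_prop) (by fun_prop)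
    · exact isClosed_eq (by fun_prop) (by fun_prop)
  have h2 : W1 κ x t q p = Prod.fst '' ((closedBall q (κ * t / 4) ×ˢ
      closedBall q (κ * t / 4 - 2 * x * t) : Set (X × X)) ∩ {z | Pt p z.2 (1 - x) z.1}) := by
    ext w
    constructor
    · rintro ⟨w', hw', hpw⟩
      exact ⟨(w, w'), ⟨⟨(H.w1 hw' hpw).2.2, hw'⟩, hpw⟩, rfl⟩
    · rintro ⟨⟨a, b⟩, ⟨⟨-, h2⟩, h3⟩, rfl⟩
      exact ⟨b, h2, h3⟩
  rw [h2]
  exact h1.image continuous_fst

theorem Apex.cont [ProperSpace X] (H : Apex X κ x t q p) (Φ : X → ℝ → X)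
    (hΦ : ∀ w, ∀ s ∈ Icc (0 : ℝ) 1, Pt p w s (Φ w s)) :
    ContinuousOn (fun z : ℝ × X => Φ z.2 z.1) (Icc (0 : ℝ) 1 ×ˢ W1 κ x t q p) := by
  intro z0 hz0
  have hR : IsClosed {y : (ℝ × X) × X | Pt p y.1.2 y.1.1 y.2} := by
    unfold Pt
    apply IsClosed.inter
    · exact isClosed_eq (by fun_prop) (by fun_prop)
    · exact isClosed_eq (by fun_prop) (by fun_prop)
  apply (isCompact_closedBall q (4 * t)).tendsto_nhds_of_unique_mapClusterPt
  · filter_upwards [self_mem_nhdsWithin] with z hz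
    obtain ⟨hs, hw⟩ := hz
    obtain ⟨w', hw', hpw⟩ := hw
    obtain ⟨e1, e2, e3⟩ := H.w1 hw' hpw
    obtain ⟨k1, k2, k3, k4⟩ := H.small
    have h1 := hΦ z.2 z.1 hs
    have t1 := dist_triangle (Φ z.2 z.1) z.2 q
    have t3 : dist (Φ z.2 z.1) z.2 ≤ 2 * t := by
      rw [h1.2, hpw.1]
      have hx := H.hx
      have hx8 := H.hx8
      have : (1 - z.1) * ((1 - x) * dist p w') ≤ 1 * (1 * dist p w') := by
        apply mul_le_mul (by linarith [hs.1]) _ (mul_nonneg (by linarith) dist_nonneg) (by norm_num)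
        apply mul_le_mul_of_nonneg_right (by linarith) dist_nonneg
      linarith
    simp only [mem_closedBall]
    linarith [H.ht]
  · intro y _ hy
    have h2 : (z0, y) ∈ {y : (ℝ × X) × X | Pt p y.1.2 y.1.1 y.2} := by
      by_contra hne
      have hopen := hR.isOpen_compl.mem_nhds hne
      rw [nhds_prod_eq, mem_prod_iff] at hopen
      obtain ⟨U, hU, V, hV, hUV⟩ := hopen
      have h3 := hy.frequently hV
      have h4 : ∀ᶠ z in 𝓝[Icc (0 : ℝ) 1 ×ˢ W1 κ x t q p] z0, z ∈ U ∧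
          z ∈ Icc (0 : ℝ) 1 ×ˢ W1 κ x t q p :=
        Filter.Eventually.and (mem_nhdsWithin_of_mem_nhds hU) self_mem_nhdsWithin
      obtain ⟨z, hz1, hz2, hz3⟩ := (h3.and_eventually h4).exists
      exact hUV (Set.mk_mem_prod hz2 hz1) (hΦ z.2 z.1 hz3.1)
    exact H.uniq hz0.2 hz0.1 h2 (hΦ z0.2 z0.1 hz0.1)

theorem toReal_le_of_le {a b : ℝ≥0∞} {r : ℝ} {n : ℕ} (hr : 0 < r) (hb : b ≠ ⊤)
    (h : a ≤ ENNReal.ofReal (1 / r) ^ n * b) : r ^ n * a.toReal ≤ b.toReal := by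
  have h1 := ENNReal.toReal_mono (ENNReal.mul_ne_top (ENNReal.pow_ne_top ENNReal.ofReal_ne_top) hb) h
  rw [ENNReal.toReal_mul, ENNReal.toReal_pow, ENNReal.toReal_ofReal (by positivity)] at h1
  calc r ^ n * a.toReal ≤ r ^ n * ((1 / r) ^ n * b.toReal) := by gcongr
    _ = b.toReal := by
      rw [← mul_assoc, ← mul_pow, mul_one_div_cancel hr.ne', one_pow, one_mul]

/-- one apex -/
theorem one_apex [ProperSpace X] [MeasurableSpace X] [BorelSpace X] (n : ℕ)
    (H : Apex X κ x t q p) {A : ℝ} (hA : 0 < A) (μ : Measure X) (f : X → ℝ)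
    (hμ : ∀ y : X, ∀ s > 0, 0 < μ (closedBall y s) ∧ μ (closedBall y s) < ⊤)
    (hlip : ∀ (S : Set X) (g : X → X) (Λ : ℝ), 0 ≤ Λ →
        (∀ x ∈ S, ∀ y ∈ S, dist (g x) (g y) ≤ Λ * dist x y) →
        μ (g '' S) ≤ ENNReal.ofReal Λ ^ n * μ S)
    (hf : ∀ y, 0 ≤ f y)
    (hfc : ContinuousOn f {z | ∃ w, dist w q ≤ κ * t / 4 ∧ ∃ s ∈ Icc (1 / 2 : ℝ) (1 - x),
      Pt p w s z})
    (hint : ∀ w, dist w q ≤ κ * t / 4 → ∀ γ : ℝ → X, γ 0 = p → γ 1 = w →
        (∀ s ∈ Icc (0 : ℝ) 1, ∀ s' ∈ Icc (0 : ℝ) 1,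
          dist (γ s) (γ s') = |s - s'| * dist p w) →
        ∫ s in Icc (1 - 4 * x) (1 - x), f (γ s) ≤ A) :
    ∃ G ⊆ closedBall q (κ * t / 4 + 8 * x * t), MeasurableSet G ∧
      (∀ z ∈ G, dist z q ≤ κ * t / 2 ∧ f z ≤ 1 / x ^ 2 * A ∧ ∃ w, dist w q ≤ κ * t / 4 ∧
        ∃ s ∈ Icc (1 / 2 : ℝ) (1 - x), Pt p w s z) ∧
      (1 - x) * rr κ x ^ n * (μ (closedBall q (κ * t / 4 + 8 * x * t))).toReal ≤ (μ G).toReal := by
  obtain ⟨k1, k2, k3, k4⟩ := H.small
  have hx := H.hx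
  have hx8 := H.hx8
  have ht := H.ht
  have hκ := H.hκ
  have hκ1 := H.hκ1
  have hp2 := H.hp2
  have hgeo := H.hgeo
  choose! Φ hΦ using (fun w s (hs : s ∈ Icc (0 : ℝ) 1) => hgeo p w s hs)
  set W := W1 κ x t q p with hW
  have hWc : IsCompact W := isCompact_W1 H
  have hWq : ∀ w ∈ W, dist w q ≤ κ * t / 4 := by
    rintro w ⟨w', hw', hpw⟩
    exact (H.w1 hw' hpw).2.2
  have hWp : ∀ w ∈ W, dist p w ≤ 2 * t := by
    rintro w ⟨w', hw', hpw⟩
    have := (H.w1 hw' hpw).2.1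
    rw [hpw.1]
    nlinarith [dist_nonneg (x := p) (y := w')]
  have hsub : Icc (1 - 4 * x) (1 - x) ⊆ Icc (0 : ℝ) 1 := Icc_subset_Icc (by linarith) (by linarith)
  have hsub2 : Icc (1 - 4 * x) (1 - x) ⊆ Icc (1 / 2 : ℝ) (1 - x) :=
    Icc_subset_Icc (by linarith) le_rfl
  have hcont : ContinuousOn (fun z : ℝ × X => f (Φ z.2 z.1)) (Icc (1 - 4 * x) (1 - x) ×ˢ W) := by
    apply hfc.comp ((H.cont Φ hΦ).mono (prod_mono hsub le_rfl))
    intro z hz
    exact ⟨z.2, hWq z.2 hz.2, z.1, hsub2 hz.1, hΦ z.2 z.1 (hsub hz.1)⟩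
  set S : Set ℝ := Icc (1 - 4 * x) (1 - x) with hS
  have hvol : volume S = ENNReal.ofReal (3 * x) := by
    rw [hS, Real.volume_Icc]; congr 1; ring
  have hWm : MeasurableSet W := hWc.isClosed.measurableSet
  have hWt : μ W < ⊤ := lt_of_le_of_lt (measure_mono (fun w hw => hWq w hw)) (hμ q _ (by positivity)).2
  have : IsFiniteMeasure (μ.restrict W) := ⟨by rwa [Measure.restrict_apply_univ]⟩
  have : IsFiniteMeasureOnCompacts μ := ⟨fun K hK => by
    obtain ⟨r, hr⟩ := hK.isBounded.subset_closedBall q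
    refine (measure_mono (hr.trans (closedBall_subset_closedBall (le_max_left r 1)))).trans_lt
      (hμ q _ (lt_of_lt_of_le one_pos (le_max_right r 1))).2⟩
  -- Fubini
  have hmeas : AEMeasurable (fun z : ℝ × X => ENNReal.ofReal (f (Φ z.2 z.1)))
      ((volume.restrict S).prod (μ.restrict W)) := by
    rw [Measure.prod_restrict]
    exact (ENNReal.continuous_ofReal.comp_continuousOn hcont).aemeasurable
      (measurableSet_Icc.prod hWm)
  have hinner : ∀ w ∈ W, ∫⁻ s in S, ENNReal.ofReal (f (Φ w s)) ≤ ENNReal.ofReal A := by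
    intro w hw
    have h1 : ContinuousOn (fun s : ℝ => f (Φ w s)) S := by
      have : (fun s : ℝ => f (Φ w s)) = (fun z : ℝ × X => f (Φ z.2 z.1)) ∘ fun s => (s, w) := rfl
      rw [this]
      apply hcont.comp (by fun_prop)
      intro s hs
      exact ⟨hs, hw⟩
    rw [← ofReal_integral_eq_lintegral_ofReal (h1.integrableOn_compact isCompact_Icc)
      (ae_of_all _ fun s => hf _)]
    apply ENNReal.ofReal_le_ofReal
    apply hint w (hWq w hw) (Φ w) (hΦ w 0 ⟨le_rfl, zero_le_one⟩).zero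
      (hΦ w 1 ⟨zero_le_one, le_rfl⟩).one
    exact H.geod hw (Φ w) (hΦ w)
  have htot : ∫⁻ s in S, ∫⁻ w in W, ENNReal.ofReal (f (Φ w s)) ∂μ ≤ ENNReal.ofReal A * μ W := by
    rw [lintegral_lintegral_swap hmeas]
    calc ∫⁻ w in W, (∫⁻ s in S, ENNReal.ofReal (f (Φ w s))) ∂μ
        ≤ ∫⁻ w in W, ENNReal.ofReal A ∂μ := by
          apply setLIntegral_mono' hWm
          intro w hw
          exact hinner w hw
      _ = _ := by rw [setLIntegral_const]
  have hmeas2 : AEMeasurable (fun s : ℝ => ∫⁻ w in W, ENNReal.ofReal (f (Φ w s)) ∂μ)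
      (volume.restrict S) := hmeas.lintegral_prod_right'
  have hvol0 : volume S ≠ 0 := by
    rw [hvol]; simpa using by positivity
  have hvol1 : volume S ≠ ⊤ := by rw [hvol]; exact ENNReal.ofReal_ne_top
  obtain ⟨s, hsS, hs⟩ := exists_le_setLAverage hvol0 hvol1 hmeas2
  rw [setLAverage_eq, hvol] at hs
  have hs' : ∫⁻ w in W, ENNReal.ofReal (f (Φ w s)) ∂μ ≤
      ENNReal.ofReal A * μ W / ENNReal.ofReal (3 * x) := hs.trans (by gcongr)
  have hs01 : s ∈ Icc (0 : ℝ) 1 := hsub hsS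
  -- slices
  have hcs : ContinuousOn (fun w => f (Φ w s)) W := by
    have : (fun w : X => f (Φ w s)) = (fun z : ℝ × X => f (Φ z.2 z.1)) ∘ fun w => (s, w) := rfl
    rw [this]
    apply hcont.comp (by fun_prop)
    intro w hw
    exact ⟨hsS, hw⟩
  have hcΦ : ContinuousOn (fun w => Φ w s) W := by
    have : (fun w : X => Φ w s) = (fun z : ℝ × X => Φ z.2 z.1) ∘ fun w => (s, w) := rfl
    rw [this]
    apply (H.cont Φ hΦ).comp (by fun_prop)
    intro w hw
    exact ⟨hs01, hw⟩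
  set M : ℝ := 1 / x ^ 2 * A with hM
  have hMpos : 0 < M := by positivity
  set W2 : Set X := W ∩ (fun w => f (Φ w s)) ⁻¹' (Iic M) with hW2
  have hW2c : IsCompact W2 :=
    hWc.of_isClosed_subset (hcs.preimage_isClosed_of_isClosed hWc.isClosed isClosed_Iic)
      inter_subset_left
  have hbad : μ (W \ W2) ≤ ENNReal.ofReal (x / 3) * μ W := by
    have h1 : ENNReal.ofReal M * μ (W \ W2) ≤ ∫⁻ w in W, ENNReal.ofReal (f (Φ w s)) ∂μ := by
      calc ENNReal.ofReal M * μ (W \ W2) = ∫⁻ w in W \ W2, ENNReal.ofReal M ∂μ := by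
            rw [setLIntegral_const]
        _ ≤ ∫⁻ w in W \ W2, ENNReal.ofReal (f (Φ w s)) ∂μ := by
            apply setLIntegral_mono' (hWm.diff hW2c.isClosed.measurableSet)
            intro w hw
            apply ENNReal.ofReal_le_ofReal
            by_contra hne
            rw [not_le] at hne
            exact hw.2 ⟨hw.1, hne.le⟩
        _ ≤ _ := lintegral_mono_set sdiff_subset
    have h2 : μ (W \ W2) ≤ (ENNReal.ofReal A * μ W / ENNReal.ofReal (3 * x)) / ENNReal.ofReal M := by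
      rw [ENNReal.le_div_iff_mul_le (Or.inl (by simpa using hMpos)) (Or.inl ENNReal.ofReal_ne_top),
        mul_comm]
      exact h1.trans hs'
    refine h2.trans (le_of_eq ?_)
    have h3 : μ W = ENNReal.ofReal (μ W).toReal := (ENNReal.ofReal_toReal hWt.ne).symm
    rw [h3, ← ENNReal.ofReal_mul hA.le, ← ENNReal.ofReal_div_of_pos (by positivity),
      ← ENNReal.ofReal_div_of_pos hMpos, ← ENNReal.ofReal_mul (by positivity)]
    congr 1
    rw [hM]
    field_simp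
  have hW2meas : (1 - x) * (μ W).toReal ≤ (μ W2).toReal := by
    have h1 : μ W ≤ μ W2 + μ (W \ W2) := by
      have : W = W2 ∪ (W \ W2) := by
        rw [union_sdiff_cancel inter_subset_left]
      calc μ W = μ (W2 ∪ (W \ W2)) := by rw [← this]
        _ ≤ _ := measure_union_le _ _
    have hW2t : μ W2 ≠ ⊤ := ((measure_mono inter_subset_left).trans_lt hWt).ne
    have hdt : μ (W \ W2) ≠ ⊤ := ((measure_mono sdiff_subset).trans_lt hWt).ne
    have h2 := ENNReal.toReal_mono (ENNReal.add_ne_top.2 ⟨hW2t, hdt⟩) h1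
    rw [ENNReal.toReal_add hW2t hdt] at h2
    have h3 := ENNReal.toReal_mono (ENNReal.mul_ne_top ENNReal.ofReal_ne_top hWt.ne) hbad
    rw [ENNReal.toReal_mul, ENNReal.toReal_ofReal (by positivity)] at h3
    have h4 : 0 ≤ x * (μ W).toReal := by positivity
    linarith
  set G : Set X := (fun w => Φ w s) '' W2 with hG
  have hGc : IsCompact G := hW2c.image_of_continuousOn (hcΦ.mono inter_subset_left)
  have hGsub : G ⊆ closedBall q (κ * t / 4 + 8 * x * t) := by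
    rintro z ⟨w, hw, rfl⟩
    have h1 := hΦ w s hs01
    have t1 := dist_triangle (Φ w s) w q
    have t2 := hWq w hw.1
    have t3 := hWp w hw.1
    have t4 : dist (Φ w s) w ≤ 4 * x * (2 * t) := by
      rw [h1.2]
      apply mul_le_mul (by linarith [hsS.1]) t3 dist_nonneg (by positivity)
    simp only [mem_closedBall]
    linarith
  refine ⟨G, hGsub, hGc.isClosed.measurableSet, ?_, ?_⟩
  · rintro z ⟨w, hw, rfl⟩
    refine ⟨?_, hw.2, w, hWq w hw.1, s, hsub2 hsS, hΦ w s hs01⟩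
    have := hGsub ⟨w, hw, rfl⟩
    simp only [mem_closedBall] at this
    linarith
  · set B : Set X := closedBall q (κ * t / 4 + 8 * x * t) with hB
    set K : Set X := closedBall q (κ * t / 4 - 2 * x * t) with hK
    have hx1 : x < 1 := by linarith
    have hKpos : 0 < κ * t / 4 - 2 * x * t := by linarith
    have hBpos : 0 < κ * t / 4 + 8 * x * t := by linarith
    have hKt : μ K ≠ ⊤ := (hμ q _ hKpos).2.ne
    have hGt : μ G ≠ ⊤ := ((measure_mono hGsub).trans_lt (hμ q _ hBpos).2).ne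
    set s1 : ℝ := (κ * t / 4 - 2 * x * t) / (κ * t / 4 + 8 * x * t) with hs1
    have hs10 : 0 < s1 := div_pos hKpos hBpos
    have hs11 : s1 ≤ 1 := by
      rw [hs1, div_le_one hBpos]; linarith
    have hBq : ∀ y ∈ B, dist y q ≤ 4 * t := by
      intro y hy
      have : dist y q ≤ κ * t / 4 + 8 * x * t := hy
      linarith
    have c1 : μ B ≤ ENNReal.ofReal (1 / (s1 * (1 - x))) ^ n * μ K := by
      apply contr_measure μ n hlip H.hcon hx1 ⟨hs10, hs11⟩ (o := q) (by simp; linarith) hBq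
      intro y hy
      obtain ⟨y', hy'⟩ := H.hgeo q y s1 ⟨hs10.le, hs11⟩
      refine ⟨y', ?_, hy'⟩
      rw [hK, mem_closedBall, dist_comm, hy'.1, dist_comm]
      have : dist y q ≤ κ * t / 4 + 8 * x * t := hy
      calc s1 * dist y q ≤ s1 * (κ * t / 4 + 8 * x * t) := by gcongr
        _ = _ := by rw [hs1]; exact div_mul_cancel₀ _ hBpos.ne'
    have c2 : μ K ≤ ENNReal.ofReal (1 / ((1 - x) * (1 - x))) ^ n * μ W := by
      apply contr_measure μ n hlip H.hcon hx1 ⟨by linarith, by linarith⟩ (o := p) (by linarith)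
      · intro y hy
        have : dist y q ≤ κ * t / 4 - 2 * x * t := hy
        linarith
      · intro y hy
        obtain ⟨y', hy'⟩ := H.hgeo p y (1 - x) ⟨by linarith, by linarith⟩
        exact ⟨y', ⟨y, hy, hy'⟩, hy'⟩
    have c3 : μ W2 ≤ ENNReal.ofReal (1 / (s * (1 - x))) ^ n * μ G := by
      apply contr_measure μ n hlip H.hcon hx1 ⟨by linarith [hsS.1], hs01.2⟩ (o := p) (by linarith)
      · intro y hy
        have := hWq y hy.1
        linarith
      · intro y hy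
        exact ⟨Φ y s, ⟨y, hy, rfl⟩, hΦ y s hs01⟩
    have r1 := toReal_le_of_le (mul_pos hs10 (by linarith)) hKt c1
    have r2 := toReal_le_of_le (mul_pos (by linarith) (by linarith)) hWt.ne c2
    have hs0 : 0 < s := by linarith [hsS.1]
    have r3 := toReal_le_of_le (mul_pos hs0 (by linarith)) hGt c3
    have hrr : rr κ x = (s1 * (1 - x)) * ((1 - x) * (1 - x)) * ((1 - 4 * x) * (1 - x)) := by
      have : s1 = (1 - 8 * x / κ) / (1 + 32 * x / κ) := by
        rw [hs1, div_eq_div_iff hBpos.ne' (by positivity)]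
        field_simp
        ring
      rw [rr, this]
      ring
    have h4x : 0 ≤ (1 - 4 * x) * (1 - x) := mul_nonneg (by linarith) (by linarith)
    have h1x : (0 : ℝ) ≤ 1 - x := by linarith
    have hle : (1 - 4 * x) * (1 - x) ≤ s * (1 - x) := mul_le_mul_of_nonneg_right hsS.1 h1x
    rw [hrr, mul_pow, mul_pow]
    calc (1 - x) * ((s1 * (1 - x)) ^ n * ((1 - x) * (1 - x)) ^ n * ((1 - 4 * x) * (1 - x)) ^ n) *
          (μ B).toReal
        ≤ (1 - x) * ((s1 * (1 - x)) ^ n * ((1 - x) * (1 - x)) ^ n * (s * (1 - x)) ^ n) *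
          (μ B).toReal := by gcongr
      _ = (1 - x) * (s * (1 - x)) ^ n * (((1 - x) * (1 - x)) ^ n *
          ((s1 * (1 - x)) ^ n * (μ B).toReal)) := by ring
      _ ≤ (1 - x) * (s * (1 - x)) ^ n * (((1 - x) * (1 - x)) ^ n * (μ K).toReal) := by gcongr
      _ ≤ (1 - x) * (s * (1 - x)) ^ n * (μ W).toReal := by gcongr
      _ = (s * (1 - x)) ^ n * ((1 - x) * (μ W).toReal) := by ring
      _ ≤ (s * (1 - x)) ^ n * (μ W2).toReal := by gcongr
      _ ≤ (μ G).toReal := r3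

end

/-- MEAS: the typical point lemma -/
theorem meas : ∀ (n L : ℕ) (κ : ℝ), 0 < κ → κ ≤ 1 → ∃ θ : ℝ, 0 < θ ∧ θ ≤ 1 / 8 ∧
    ∃ ε : ℝ, 0 < ε ∧ ε ≤ 1 / 8 ∧
    ∃ C : ℝ, 0 < C ∧ ∀ (X : Type) [MetricSpace X] [ProperSpace X] [MeasurableSpace X]
      [BorelSpace X] (μ : Measure X) (q : X) (t A : ℝ) (N : ℕ) (p : Fin N → X)
      (f : Fin N → X → ℝ), 0 < t → 0 < A → N ≤ L →
      (∀ x : X, ∀ s > 0, 0 < μ (Metric.closedBall x s) ∧ μ (Metric.closedBall x s) < ⊤) →
      (∀ (S : Set X) (g : X → X) (Λ : ℝ), 0 ≤ Λ →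
        (∀ x ∈ S, ∀ y ∈ S, dist (g x) (g y) ≤ Λ * dist x y) →
        μ (g '' S) ≤ ENNReal.ofReal Λ ^ n * μ S) →
      (∀ (x y : X) (s : ℝ), s ∈ Icc (0 : ℝ) 1 →
        ∃ z, dist x z = s * dist x y ∧ dist z y = (1 - s) * dist x y) →
      (∀ (o x y x' y' : X) (s : ℝ), s ∈ Ioc (0 : ℝ) 1 → dist o q ≤ 4 * t → dist x q ≤ 4 * t →
        dist y q ≤ 4 * t → dist o x' = s * dist o x → dist x' x = (1 - s) * dist o x →
        dist o y' = s * dist o y → dist y' y = (1 - s) * dist o y →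
        s * (1 - ε) * dist x y ≤ dist x' y') →
      (∀ j, κ * t / 2 ≤ dist (p j) q ∧ dist (p j) q ≤ t) →
      (∀ j x, 0 ≤ f j x) →
      (∀ j, ContinuousOn (f j) {z | ∃ w, dist w q ≤ κ * t / 4 ∧ ∃ s ∈ Icc (1 / 2 : ℝ) (1 - θ),
        dist (p j) z = s * dist (p j) w ∧ dist z w = (1 - s) * dist (p j) w}) →
      (∀ j, ∀ w, dist w q ≤ κ * t / 4 → ∀ γ : ℝ → X, γ 0 = p j → γ 1 = w →
        (∀ s ∈ Icc (0 : ℝ) 1, ∀ s' ∈ Icc (0 : ℝ) 1,
          dist (γ s) (γ s') = |s - s'| * dist (p j) w) →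
        ∫ s in Icc (1 - 4 * θ) (1 - θ), f j (γ s) ≤ A) →
      ∃ z, dist z q ≤ κ * t / 2 ∧ ∀ j, f j z ≤ C * A ∧ ∃ w, dist w q ≤ κ * t / 4 ∧
        ∃ s ∈ Icc (1 / 2 : ℝ) (1 - θ),
          dist (p j) z = s * dist (p j) w ∧ dist z w = (1 - s) * dist (p j) w := by
  intro n L κ hκ hκ1
  obtain ⟨x, hx, hx8, hxκ, hxL⟩ := exists_small n L hκ
  refine ⟨x, hx, hx8, x, hx, hx8, 1 / x ^ 2, by positivity, ?_⟩
  intro X _ _ _ _ μ q t A N p f ht hA hN hμ hlip hgeo hcon hp hf hfc hint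
  have H : ∀ j, Apex X κ x t q (p j) := fun j =>
    { hκ := hκ, hκ1 := hκ1, hx := hx, hx8 := hx8, hxκ := hxκ, ht := ht, hgeo := hgeo,
      hcon := fun o a b a' b' s hs ho ha hb h1 h2 =>
        hcon o a b a' b' s hs ho ha hb h1.1 h1.2 h2.1 h2.2
      hp1 := (hp j).1, hp2 := (hp j).2 }
  have hone : ∀ j, ∃ G ⊆ closedBall q (κ * t / 4 + 8 * x * t), MeasurableSet G ∧
      (∀ z ∈ G, dist z q ≤ κ * t / 2 ∧ f j z ≤ 1 / x ^ 2 * A ∧ ∃ w, dist w q ≤ κ * t / 4 ∧
        ∃ s ∈ Icc (1 / 2 : ℝ) (1 - x), Pt (p j) w s z) ∧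
      (1 - x) * rr κ x ^ n * (μ (closedBall q (κ * t / 4 + 8 * x * t))).toReal ≤ (μ G).toReal :=
    fun j => one_apex n (H j) hA μ (f j) hμ hlip (hf j) (hfc j) (hint j)
  choose G hGB hGm hGz hGμ using hone
  set B : Set X := closedBall q (κ * t / 4 + 8 * x * t) with hB
  have hBr : 0 < κ * t / 4 + 8 * x * t := by positivity
  have hB0 : 0 < μ B := (hμ q _ hBr).1
  have hBt : μ B < ⊤ := (hμ q _ hBr).2
  have hBpos : 0 < (μ B).toReal := ENNReal.toReal_pos hB0.ne' hBt.ne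
  -- complements
  have hcomp : ∀ j, (μ (B \ G j)).toReal ≤ 1 / ((L : ℝ) + 1) * (μ B).toReal := by
    intro j
    have hGt : μ (G j) ≠ ⊤ := ((measure_mono (hGB j)).trans_lt hBt).ne
    rw [measure_sdiff (hGB j) (hGm j).nullMeasurableSet hGt,
      ENNReal.toReal_sub_of_le (measure_mono (hGB j)) hBt.ne]
    have h1 : (L : ℝ) / (L + 1) * (μ B).toReal ≤ (μ (G j)).toReal :=
      (mul_le_mul_of_nonneg_right hxL.le hBpos.le).trans (hGμ j)
    have h2 : (1 : ℝ) = (L : ℝ) / (L + 1) + 1 / (L + 1) := by field_simp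
    have h3 : (μ B).toReal = (L : ℝ) / (L + 1) * (μ B).toReal + 1 / (L + 1) * (μ B).toReal := by
      rw [← add_mul, ← h2, one_mul]
    linarith
  have hex : ∃ z ∈ B, ∀ j, z ∈ G j := by
    by_contra hne
    push Not at hne
    have h1 : B ⊆ ⋃ j, (B \ G j) := by
      intro z hz
      obtain ⟨j, hj⟩ := hne z hz
      exact mem_iUnion.2 ⟨j, hz, hj⟩
    have h2 : μ B ≤ ∑ j, μ (B \ G j) := (measure_mono h1).trans (measure_iUnion_fintype_le _ _)
    have h3 : ∀ j, μ (B \ G j) ≠ ⊤ := fun j => ((measure_mono sdiff_subset).trans_lt hBt).ne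
    have h4 := ENNReal.toReal_mono (ENNReal.sum_ne_top.2 fun j _ => h3 j) h2
    rw [ENNReal.toReal_sum fun j _ => h3 j] at h4
    have h5 : ∑ j, (μ (B \ G j)).toReal ≤ N * (1 / ((L : ℝ) + 1) * (μ B).toReal) := by
      calc ∑ j, (μ (B \ G j)).toReal ≤ ∑ _j : Fin N, (1 / ((L : ℝ) + 1) * (μ B).toReal) :=
            Finset.sum_le_sum fun j _ => hcomp j
        _ = _ := by simp
    have h6 : (N : ℝ) * (1 / ((L : ℝ) + 1) * (μ B).toReal) < (μ B).toReal := by
      have hNL : (N : ℝ) ≤ L := by exact_mod_cast hN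
      have : (N : ℝ) * (1 / ((L : ℝ) + 1)) < 1 := by
        rw [mul_one_div, div_lt_one (by positivity)]
        linarith
      calc (N : ℝ) * (1 / ((L : ℝ) + 1) * (μ B).toReal)
          = (N : ℝ) * (1 / ((L : ℝ) + 1)) * (μ B).toReal := by ring
        _ < 1 * (μ B).toReal := by gcongr
        _ = _ := one_mul _
    linarith
  obtain ⟨z, hz, hzG⟩ := hex
  refine ⟨z, ?_, fun j => (hGz j z (hzG j)).2⟩
  have h1 : dist z q ≤ κ * t / 4 + 8 * x * t := hz
  have h2 : x * t ≤ κ / 32 * t := mul_le_mul_of_nonneg_right hxκ ht.le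
  linarith

end Vale.Agent.P210.R2.H582
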