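import Vale.Agent.P210.R2.H582.OneA

/-!
The integral hypothesis of the typical point lemma (MEAS), and Lipschitz maps and the
Hausdorff measure.
-/

open scoped Manifold ContDiff Topology Bundle
open Set Metric Filter Bundle IsManifold MeasureTheory Manifold Asymptotics

set_option maxSynthPendingDepth 3

noncomputable section

namespace Vale.Agent.P210.R2.H582

open Vale.Agent.P210.R2.H53

section

variable {M : Type} [MetricSpace M]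

theorem cont_F {p : M} {f : M → ℝ}
    (hf : ∀ (q : M) (ρ θ : ℝ), 0 < θ → θ ≤ 1 / 2 → ρ < dist p q →
      ContinuousOn f {z | ∃ w, dist w q ≤ ρ ∧ ∃ s ∈ Icc (1 / 2 : ℝ) (1 - θ),
        dist p z = s * dist p w ∧ dist z w = (1 - s) * dist p w})
    {c : ℝ → M} {ℓ : ℝ} (hc : MinGeo c 0 ℓ) (hc0 : c 0 = p) :
    ContinuousOn (fun t => f (c t)) (Ioo 0 ℓ) := by
  intro u₀ hu₀
  obtain ⟨u₁, hu₁, hu₁ℓ, hu₁b⟩ : ∃ u₁, u₀ < u₁ ∧ u₁ ≤ ℓ ∧ u₁ ≤ 3 * u₀ / 2 :=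
    ⟨min ℓ (3 * u₀ / 2), lt_min hu₀.2 (by linarith [hu₀.1]), min_le_left _ _, min_le_right _ _⟩
  have hu₀p : 0 < u₀ := hu₀.1
  have hu₁p : 0 < u₁ := hu₀p.trans hu₁
  set θ : ℝ := (1 - u₀ / u₁) / 2 with hθ
  have hr1 : u₀ / u₁ < 1 := (div_lt_one hu₁p).2 hu₁
  have hr2 : 2 / 3 ≤ u₀ / u₁ := by rw [le_div_iff₀ hu₁p]; linarith
  have hθ0 : 0 < θ := by rw [hθ]; linarith
  have hθ1 : θ ≤ 1 / 2 := by rw [hθ]; linarith
  have hd : dist p (c u₁) = u₁ := by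
    rw [← hc0, hc 0 ⟨le_rfl, hu₁p.le.trans hu₁ℓ⟩ u₁ ⟨hu₁p.le, hu₁ℓ⟩, zero_sub, abs_neg,
      abs_of_pos hu₁p]
  have hS := hf (c u₁) 0 θ hθ0 hθ1 (by rw [hd]; exact hu₁p)
  set S := {z | ∃ w, dist w (c u₁) ≤ 0 ∧ ∃ s ∈ Icc (1 / 2 : ℝ) (1 - θ),
        dist p z = s * dist p w ∧ dist z w = (1 - s) * dist p w} with hSdef
  have hmaps : MapsTo c (Icc (u₁ / 2) ((1 - θ) * u₁)) S := by
    intro u hu
    have hu1 : u ≤ u₁ := hu.2.trans (by nlinarith)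
    have hup : 0 ≤ u := le_trans (by linarith) hu.1
    refine ⟨c u₁, by simp, u / u₁, ⟨?_, ?_⟩, ?_, ?_⟩
    · rw [le_div_iff₀ hu₁p]; linarith [hu.1]
    · rw [div_le_iff₀ hu₁p]; exact hu.2
    · rw [hd, div_mul_cancel₀ _ hu₁p.ne', ← hc0, hc 0 ⟨le_rfl, hu₁p.le.trans hu₁ℓ⟩ u
        ⟨hup, hu1.trans hu₁ℓ⟩, zero_sub, abs_neg, abs_of_nonneg hup]
    · rw [hd, hc u ⟨hup, hu1.trans hu₁ℓ⟩ u₁ ⟨hu₁p.le, hu₁ℓ⟩, abs_of_nonpos (by linarith)]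
      field_simp
      ring
  have hcc : ContinuousOn c (Icc (u₁ / 2) ((1 - θ) * u₁)) :=
    (MinGeo.continuousOn hc).mono (Icc_subset_Icc (by linarith)
      (by nlinarith))
  have hfc : ContinuousOn (f ∘ c) (Icc (u₁ / 2) ((1 - θ) * u₁)) := hS.comp hcc hmaps
  have hmem : Icc (u₁ / 2) ((1 - θ) * u₁) ∈ 𝓝 u₀ := by
    apply Icc_mem_nhds
    · linarith
    · have : u₀ = (u₀ / u₁) * u₁ := by field_simp
      rw [this]
      apply mul_lt_mul_of_pos_right _ hu₁p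
      rw [hθ]; linarith
  exact (hfc.continuousAt hmem).continuousWithinAt

/-- Lipschitz maps and the Hausdorff measure -/
theorem haus_lip [MeasurableSpace M] [BorelSpace M] (n : ℕ) (S : Set M) (g : M → M) (Λ : ℝ)
    (hΛ : 0 ≤ Λ) (h : ∀ x ∈ S, ∀ y ∈ S, dist (g x) (g y) ≤ Λ * dist x y) :
    (Measure.hausdorffMeasure (n : ℝ) : Measure M) (g '' S) ≤
      ENNReal.ofReal Λ ^ n * (Measure.hausdorffMeasure (n : ℝ) : Measure M) S := by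
  have hL : LipschitzOnWith Λ.toNNReal g S := by
    apply LipschitzOnWith.of_dist_le_mul
    intro x hx y hy
    rw [Real.coe_toNNReal _ hΛ]
    exact h x hx y hy
  have := hL.hausdorffMeasure_image_le (d := (n : ℝ)) (by positivity)
  rw [ENNReal.rpow_natCast] at this
  exact this

end

theorem int_bound (hSVI : Stmt.SVI)
    (E : Type) [NormedAddCommGroup E] [NormedSpace ℝ E]
    [FiniteDimensional ℝ E] (M : Type) [MetricSpace M] [ChartedSpace E M]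
    [RiemannianBundle (fun x : M => TangentSpace 𝓘(ℝ, E) x)]
    [IsManifold 𝓘(ℝ, E) ∞ M]
    [IsContMDiffRiemannianBundle 𝓘(ℝ, E) ∞ E (fun x : M => TangentSpace 𝓘(ℝ, E) x)]
    [IsRiemannianManifold 𝓘(ℝ, E) M]
    {κ : ℝ} (hκ : 0 < κ) (hsec : SecGE E M (-κ ^ 2)) {p w : M} {f : M → ℝ}
    (hf2 : ∀ (c : ℝ → M) (ℓ s : ℝ), MinGeo c 0 ℓ → c 0 = p → s ∈ Ioo 0 ℓ →
      ∀ e ∈ maximalAtlas 𝓘(ℝ, E) ∞ M, c s ∈ e.source → ∀ v : E,
      HasDerivAt (fun t => e (c t)) v s →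
      ∀ b : Module.Basis (Fin (Module.finrank ℝ E)) ℝ E,
        (∀ i j, chartG e (e (c s)) (b i) (b j) = if i = j then 1 else 0) →
        ∑ i, secG (chartG e) (e (c s)) (b i) v = f (c s) - (Module.finrank ℝ E - 1) * κ ^ 2)
    (hf3 : ∀ (q : M) (ρ θ : ℝ), 0 < θ → θ ≤ 1 / 2 → ρ < dist p q →
      ContinuousOn f {z | ∃ w, dist w q ≤ ρ ∧ ∃ s ∈ Icc (1 / 2 : ℝ) (1 - θ),
        dist p z = s * dist p w ∧ dist z w = (1 - s) * dist p w})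
    {θ : ℝ} (hθ : 0 < θ) (hθ8 : θ ≤ 1 / 8) (hw : 0 < dist p w)
    {γ : ℝ → M} (hγ0 : γ 0 = p)
    (hγ : ∀ s ∈ Icc (0 : ℝ) 1, ∀ s' ∈ Icc (0 : ℝ) 1, dist (γ s) (γ s') = |s - s'| * dist p w) :
    ∫ s in Icc (1 - 4 * θ) (1 - θ), f (γ s) ≤
      2 * Module.finrank ℝ E / (θ * dist p w ^ 2) + 5 * Module.finrank ℝ E * κ ^ 2 * θ := by
  set ℓ : ℝ := dist p w with hℓ
  set n : ℝ := (Module.finrank ℝ E : ℝ) with hn
  set c : ℝ → M := fun u => γ (u / ℓ) with hc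
  have hgeo : MinGeo c 0 ℓ := by
    intro s hs t ht
    have h1 : ∀ s ∈ Icc 0 ℓ, s / ℓ ∈ Icc (0 : ℝ) 1 := fun s hs =>
      ⟨div_nonneg hs.1 hw.le, (div_le_one hw).2 hs.2⟩
    simp only [hc]
    rw [hγ _ (h1 s hs) _ (h1 t ht), ← sub_div, abs_div, abs_of_pos hw]
    field_simp
  have hc0 : c 0 = p := by simp only [hc, zero_div]; exact hγ0
  have hSV := hSVI E M κ hκ hsec c ℓ θ (fun s => f (c s) - (n - 1) * κ ^ 2) hw hθ hθ8 hgeo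
    ((cont_F hf3 hgeo hc0).sub continuousOn_const)
    (fun s hs e he hse v hv b hb => hf2 c ℓ s hgeo hc0 hs e he hse v hv b hb)
  simp only [← hn, sub_add_cancel] at hSV
  have hle : 1 - 4 * θ ≤ 1 - θ := by linarith
  have hle' : (1 - 4 * θ) * ℓ ≤ (1 - θ) * ℓ := mul_le_mul_of_nonneg_right hle hw.le
  rw [integral_Icc_eq_integral_Ioc, ← intervalIntegral.integral_of_le hle'] at hSV
  rw [integral_Icc_eq_integral_Ioc, ← intervalIntegral.integral_of_le hle]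
  have hchange : ∫ s in (1 - 4 * θ)..(1 - θ), f (γ s) =
      ℓ⁻¹ * ∫ s in ((1 - 4 * θ) * ℓ)..((1 - θ) * ℓ), f (c s) := by
    have := intervalIntegral.integral_comp_mul_left (fun u => f (c u)) hw.ne'
      (a := 1 - 4 * θ) (b := 1 - θ)
    rw [mul_comm ℓ, mul_comm ℓ, smul_eq_mul] at this
    rw [← this]
    congr 1
    ext s
    simp only [hc]
    rw [mul_div_cancel_left₀ _ hw.ne']
  rw [hchange]
  calc ℓ⁻¹ * ∫ s in ((1 - 4 * θ) * ℓ)..((1 - θ) * ℓ), f (c s)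
      ≤ ℓ⁻¹ * (2 * n / (θ * ℓ) + 5 * n * κ ^ 2 * θ * ℓ) :=
        mul_le_mul_of_nonneg_left hSV (inv_nonneg.2 hw.le)
    _ = 2 * n / (θ * ℓ ^ 2) + 5 * n * κ ^ 2 * θ := by
        field_simp

end Vale.Agent.P210.R2.H582
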