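import Vale.Agent.P210.R2.H582.OneB
import Vale.Agent.P210.R2.H582.OneC
import Vale.Agent.P210.R2.H582.Meas
import Vale.Agent.P210.R2.H582.HausGen
import Vale.Agent.P210.R2.H329.PtLinM
import Vale.Agent.P210.R2.H329.Hinge

/-!
The one scale lemma: assembly of the modules LIN, MEAS, CMP, HESS, GEO, JET, RICF, SVI.
-/

open scoped Manifold ContDiff Topology Bundle RealInnerProductSpace
open Set Metric Filter Bundle IsManifold MeasureTheory Manifold Asymptotics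

set_option maxSynthPendingDepth 3

noncomputable section

namespace Vale.Agent.P210.R2.H582

open Vale.Agent.P210.R2.H53

theorem exists_velocity (hGEO : Stmt.GEO)
    (E : Type) [NormedAddCommGroup E] [NormedSpace ℝ E]
    [FiniteDimensional ℝ E] (M : Type) [MetricSpace M] [ChartedSpace E M]
    [RiemannianBundle (fun x : M => TangentSpace 𝓘(ℝ, E) x)]
    [IsManifold 𝓘(ℝ, E) ∞ M]
    [IsContMDiffRiemannianBundle 𝓘(ℝ, E) ∞ E (fun x : M => TangentSpace 𝓘(ℝ, E) x)]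
    [IsRiemannianManifold 𝓘(ℝ, E) M] {c : ℝ → M} {ℓ d : ℝ} (hc : MinGeo c 0 ℓ)
    (hd : d ∈ Ioo 0 ℓ) {e : OpenPartialHomeomorph M E} (he : e ∈ maximalAtlas 𝓘(ℝ, E) ∞ M)
    (hce : c d ∈ e.source) :
    ∃ v : E, HasDerivAt (fun t => e (c t)) v d ∧ chartG e (e (c d)) v v = 1 := by
  obtain ⟨δ, hδ, w, w', hw, hcw⟩ := (hGEO E M).2.1 c 0 ℓ d (hd.1.trans hd.2) hc
    ⟨hd.1.le, hd.2.le⟩ e he hce
  have hG := hw d (by simpa using hδ)
  have hcd : e (c d) = w d := (hcw d ⟨hd.1.le, hd.2.le⟩ (by simpa using hδ)).2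
  refine ⟨w' d, ?_, ?_⟩
  · apply hG.1.congr_of_eventuallyEq
    filter_upwards [Ioo_mem_nhds hd.1 hd.2, Metric.ball_mem_nhds d hδ] with t ht1 ht2
    exact (hcw t ⟨ht1.1.le, ht1.2.le⟩ (by rwa [← Real.dist_eq])).2
  · rw [hcd]
    exact hG.2.2.2

/-- the contradiction at one scale -/
theorem one_core (hCMPc : Stmt.HESS) (hGEO : Stmt.GEO) (hJET : Stmt.JET) (hRICF : Stmt.RICF)
    (hSVI : Stmt.SVI) {n L : ℕ} {κ a : ℝ} (hn : 3 ≤ n) (hκ : 0 < κ) (hκ8 : κ ≤ 1 / 8)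
    (hL : ∀ (V : Type) [NormedAddCommGroup V] [InnerProductSpace ℝ V]
      [FiniteDimensional ℝ V], Module.finrank ℝ V = n →
      ∀ (K : V → V → ℝ) (B : V → V →ₗ[ℝ] V →ₗ[ℝ] ℝ) (δ : ℝ), 0 ≤ δ → δ ≤ a →
      (∀ u v, K u v = B u v v) → (∀ u v, K u v = K v u) → (∀ u, K u u = 0) →
      (∀ u v, -δ * (‖u‖ ^ 2 * ‖v‖ ^ 2 - ⟪u, v⟫ ^ 2) ≤ K u v) →
      (∀ b : OrthonormalBasis (Fin n) ℝ V, 1 ≤ ∑ i, ∑ j, K (b i) (b j)) →
      ∀ (N : ℕ) (u : Fin N → V) (d : Fin N → ℝ) (t : ℝ), 0 < t →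
      (∀ j, ‖u j‖ = 1) → (∀ j, 0 ≤ d j ∧ d j ≤ 2 * t) →
      (∀ j, ∀ b : OrthonormalBasis (Fin n) ℝ V, ∑ i, K (b i) (u j) ≤ a) →
      (∀ i j, i ≠ j → κ * t / 2 ≤ ‖d i • u i - d j • u j‖) → N ≤ L)
    {θ ε C τ k T₀ T : ℝ} (hθ : 0 < θ) (hθ8 : θ ≤ 1 / 8) (hε : 0 < ε) (hε8 : ε ≤ 1 / 8)
    (hmeas : ∀ (X : Type) [MetricSpace X] [ProperSpace X] [MeasurableSpace X]
      [BorelSpace X] (μ : Measure X) (q : X) (t A : ℝ) (N : ℕ) (p : Fin N → X)
      (f : Fin N → X → ℝ), 0 < t → 0 < A → N ≤ L + 1 →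
      (∀ x : X, ∀ s > 0, 0 < μ (Metric.closedBall x s) ∧ μ (Metric.closedBall x s) < ⊤) →
      (∀ (S : Set X) (g : X → X) (Λ : ℝ), 0 ≤ Λ →
        (∀ x ∈ S, ∀ y ∈ S, dist (g x) (g y) ≤ Λ * dist x y) →
        μ (g '' S) ≤ ENNReal.ofReal Λ ^ n * μ S) →
      (∀ (x y : X) (s : ℝ), s ∈ Icc (0 : ℝ) 1 →
        ∃ z, dist x z = s * dist x y ∧ dist z y = (1 - s) * dist x y) →
      (∀ (o x y x' y' : X) (s : ℝ), s ∈ Ioc (0 : ℝ) 1 → dist o q ≤ 4 * t → dist x q ≤ 4 * t →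
        dist y q ≤ 4 * t → dist o x' = s * dist o x → dist x' x = (1 - s) * dist o x →
        dist o y' = s * dist o y → dist y' y = (1 - s) * dist o y →
        s * (1 - ε) * dist x y ≤ dist x' y') →
      (∀ j, κ * t / 2 ≤ dist (p j) q ∧ dist (p j) q ≤ t) →
      (∀ j x, 0 ≤ f j x) →
      (∀ j, ContinuousOn (f j) {z | ∃ w, dist w q ≤ κ * t / 4 ∧ ∃ s ∈ Icc (1 / 2 : ℝ) (1 - θ),
        dist (p j) z = s * dist (p j) w ∧ dist z w = (1 - s) * dist (p j) w}) →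
      (∀ j, ∀ w, dist w q ≤ κ * t / 4 → ∀ γ : ℝ → X, γ 0 = p j → γ 1 = w →
        (∀ s ∈ Icc (0 : ℝ) 1, ∀ s' ∈ Icc (0 : ℝ) 1,
          dist (γ s) (γ s') = |s - s'| * dist (p j) w) →
        ∫ s in Icc (1 - 4 * θ) (1 - θ), f j (γ s) ≤ A) →
      ∃ z, dist z q ≤ κ * t / 2 ∧ ∀ j, f j z ≤ C * A ∧ ∃ w, dist w q ≤ κ * t / 4 ∧
        ∃ s ∈ Icc (1 / 2 : ℝ) (1 - θ),
          dist (p j) z = s * dist (p j) w ∧ dist z w = (1 - s) * dist (p j) w)
    (hcmp : ∀ (X : Type) [MetricSpace X] (κ T : ℝ), 0 < κ → 0 < T →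
      κ * T ≤ τ →
      (∀ x y : X, ∃ c : ℝ → X, MinGeo c 0 (dist x y) ∧ c 0 = x ∧ c (dist x y) = y) →
      (∀ (q : X) (c : ℝ → X) (a b s₀ : ℝ), MinGeo c a b → s₀ ∈ Ioo a b → q ≠ c s₀ →
        ∃ α : ℝ, |α| ≤ 1 ∧
          (∀ η > 0, ∀ᶠ r in 𝓝[>] (0 : ℝ), dist q (c (s₀ + r)) + dist q (c (s₀ - r)) ≤
            2 * dist q (c s₀) +
              r ^ 2 * ((1 / dist q (c s₀) + κ ^ 2 * dist q (c s₀)) * (1 - α ^ 2) + η)) ∧
          ∃ C : ℝ, ∀ᶠ r in 𝓝 (0 : ℝ), dist q (c (s₀ + r)) ≤ dist q (c s₀) + r * α + C * r ^ 2) →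
      (∀ (o x y x' y' : X) (s : ℝ), s ∈ Ioc (0 : ℝ) 1 → dist o x ≤ T → dist o y ≤ T →
        dist o x' = s * dist o x → dist x' x = (1 - s) * dist o x →
        dist o y' = s * dist o y → dist y' y = (1 - s) * dist o y →
        s * (1 - ε) * dist x y ≤ dist x' y') ∧
      (∀ (c₁ c₂ : ℝ → X) (a b t : ℝ), MinGeo c₁ 0 a → MinGeo c₂ 0 b → c₁ 0 = c₂ 0 → 0 < t →
        t ≤ a → t ≤ b → a ≤ T → b ≤ T →
        dist (c₁ a) (c₂ b) ^ 2 ≤
          (1 + ε) * ((a - b) ^ 2 + a * b * (dist (c₁ t) (c₂ t) / t) ^ 2)))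
    (hT₀ : 0 < T₀) (hT₀C : C * (32 * n / (θ * κ ^ 2 * T₀ ^ 2)) ≤ a / 2)
    (hk : 0 < k) (hkτ : k * (8 * T) ≤ τ) (hka : k ^ 2 ≤ a)
    (hkC : C * (5 * n * k ^ 2 * θ) ≤ a / 2)
    (E : Type) [NormedAddCommGroup E] [NormedSpace ℝ E]
    [FiniteDimensional ℝ E] (M : Type) [MetricSpace M] [ChartedSpace E M]
    [RiemannianBundle (fun x : M => TangentSpace 𝓘(ℝ, E) x)]
    [IsManifold 𝓘(ℝ, E) ∞ M]
    [IsContMDiffRiemannianBundle 𝓘(ℝ, E) ∞ E (fun x : M => TangentSpace 𝓘(ℝ, E) x)]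
    [IsRiemannianManifold 𝓘(ℝ, E) M] [CompleteSpace M] (hE : Module.finrank ℝ E = n)
    (hsec : SecGE E M (-k ^ 2)) (hscal : ScalGE E M 1) {t : ℝ} (ht : t ∈ Icc T₀ T) (q : M)
    (p : Fin (L + 1) → M) (hp : ∀ j, κ * t / 2 ≤ dist (p j) q ∧ dist (p j) q ≤ t)
    (hsep : ∀ i j, i ≠ j → κ * t ≤ dist (p i) (p j)) : False := by
  have : Nonempty M := ⟨q⟩
  have hgeo : AllGeo M := allGeo_of_GEO hGEO E M
  have : ProperSpace M := properSpace_riemannian E M
  borelize M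
  have ht0 : 0 < t := hT₀.trans_le ht.1
  have hT : 0 < T := ht0.trans_le ht.2
  have hn0 : (0 : ℝ) < n := by
    have : (3 : ℝ) ≤ n := by exact_mod_cast hn
    linarith
  have hκt : 0 < κ * t := mul_pos hκ ht0
  obtain ⟨hcon, hhin⟩ := hcmp M k (8 * T) hk (by positivity) hkτ hgeo
    (fun q c a b s₀ h1 h2 h3 => cmp_hyp hGEO hJET hCMPc E M hgeo hk hsec q c a b s₀ h1 h2 h3)
  -- the functions
  have hf : ∀ j, ∃ f : M → ℝ, (∀ z, 0 ≤ f z) ∧
    (∀ (c : ℝ → M) (ℓ s : ℝ), MinGeo c 0 ℓ → c 0 = p j → s ∈ Ioo 0 ℓ →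
      ∀ e ∈ maximalAtlas 𝓘(ℝ, E) ∞ M, c s ∈ e.source → ∀ v : E,
      HasDerivAt (fun t => e (c t)) v s →
      ∀ b : Module.Basis (Fin (Module.finrank ℝ E)) ℝ E,
        (∀ i j, chartG e (e (c s)) (b i) (b j) = if i = j then 1 else 0) →
        ∑ i, secG (chartG e) (e (c s)) (b i) v = f (c s) - (Module.finrank ℝ E - 1) * k ^ 2) ∧
    ∀ (q : M) (ρ θ : ℝ), 0 < θ → θ ≤ 1 / 2 → ρ < dist (p j) q →
      ContinuousOn f {z | ∃ w, dist w q ≤ ρ ∧ ∃ s ∈ Icc (1 / 2 : ℝ) (1 - θ),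
        dist (p j) z = s * dist (p j) w ∧ dist z w = (1 - s) * dist (p j) w} :=
    fun j => hRICF E M k hk hsec inferInstance (p j)
  choose f hf1 hf2 hf3 using hf
  set A : ℝ := 32 * n / (θ * κ ^ 2 * T₀ ^ 2) + 5 * n * k ^ 2 * θ with hA
  have hA0 : 0 < A := by positivity
  have hlen : ∀ j, ∀ w, dist w q ≤ κ * t / 4 → κ * t / 4 ≤ dist (p j) w := by
    intro j w hw
    have := dist_triangle (p j) w q
    linarith [(hp j).1]
  obtain ⟨z, hzq, hz⟩ := hmeas M (Measure.hausdorffMeasure (n : ℝ)) q t A (L + 1) p f ht0 hA0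
    le_rfl
    (fun x s hs => by
      have := haus_gen E M x s hs
      rwa [hE] at this)
    (fun S g Λ hΛ h => haus_lip n S g Λ hΛ h)
    (fun x y s hs => hgeo.frac x y hs)
    (fun o x y x' y' s hs ho hx hy h1 h2 h3 h4 => by
      refine hcon o x y x' y' s hs ?_ ?_ h1 h2 h3 h4
      · have := dist_triangle_right o x q
        linarith [ht.2]
      · have := dist_triangle_right o y q
        linarith [ht.2])
    hp hf1
    (fun j => hf3 j q (κ * t / 4) θ hθ (by linarith) (by linarith [(hp j).1]))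
    (fun j w hw γ hγ0 hγ1 hγ => by
      have hl := hlen j w hw
      have hl0 : 0 < dist (p j) w := by linarith
      refine (int_bound hSVI E M hk hsec (hf2 j) (hf3 j) hθ hθ8 hl0 hγ0 hγ).trans ?_
      rw [hE, hA]
      have h1 : 2 * (n : ℝ) / (θ * dist (p j) w ^ 2) ≤ 32 * n / (θ * κ ^ 2 * T₀ ^ 2) := by
        rw [div_le_div_iff₀ (by positivity) (by positivity)]
        have h2 : κ ^ 2 * T₀ ^ 2 ≤ 16 * dist (p j) w ^ 2 := by
          have h3 : κ * T₀ ≤ 4 * dist (p j) w := by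
            have := mul_le_mul_of_nonneg_left ht.1 hκ.le
            linarith
          calc κ ^ 2 * T₀ ^ 2 = (κ * T₀) ^ 2 := by ring
            _ ≤ (4 * dist (p j) w) ^ 2 := pow_le_pow_left₀ (by positivity) h3 2
            _ = _ := by ring
        calc 2 * (n : ℝ) * (θ * κ ^ 2 * T₀ ^ 2) = 2 * n * θ * (κ ^ 2 * T₀ ^ 2) := by ring
          _ ≤ 2 * n * θ * (16 * dist (p j) w ^ 2) := by gcongr
          _ = _ := by ring
      linarith)
  have hfz : ∀ j, f j z ≤ a := fun j => by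
    refine (hz j).1.trans ?_
    rw [hA, mul_add]
    linarith
  -- the data at `z`
  set e : OpenPartialHomeomorph M E := chartAt E z with he_def
  have he : e ∈ maximalAtlas 𝓘(ℝ, E) ∞ M := chart_mem_maximalAtlas z
  have hze : z ∈ e.source := mem_chart_source E z
  have hdata : ∀ j, ∃ (c : ℝ → M) (v : E), 0 < dist (p j) z ∧
      dist (p j) z ≤ 2 * t ∧ MinGeo c 0 (dist (p j) z) ∧ c 0 = p j ∧ c (dist (p j) z) = z ∧
      HasDerivAt (fun t => e (c t)) v (dist (p j) z) ∧ chartG e (e z) v v = 1 ∧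
      ∀ b : Module.Basis (Fin (Module.finrank ℝ E)) ℝ E,
        (∀ i k, chartG e (e z) (b i) (b k) = if i = k then 1 else 0) →
        ∑ i, secG (chartG e) (e z) (b i) v ≤ a := by
    intro j
    obtain ⟨w, hw, s, hs, hs1, hs2⟩ := (hz j).2
    have hs01 : s ∈ Icc (0 : ℝ) 1 := ⟨by linarith [hs.1], by linarith [hs.2]⟩
    have hl := hlen j w hw
    have hl0 : 0 < dist (p j) w := by linarith
    obtain ⟨c, hc, hc0, hc1, hcz⟩ := hgeo.through hs01 hs1 hs2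
    have hd : dist (p j) z ∈ Ioo 0 (dist (p j) w) := by
      rw [hs1]
      constructor
      · exact mul_pos (by linarith [hs.1]) hl0
      · exact mul_lt_of_lt_one_left hl0 (by linarith [hs.2])
    obtain ⟨v, hv, hv1⟩ := exists_velocity hGEO E M hc hd he (by rw [hcz]; exact hze)
    refine ⟨c, v, hd.1, ?_, MinGeo.mono' hc le_rfl hd.2.le, hc0, hcz, hv, by rwa [hcz] at hv1, ?_⟩
    · have := dist_triangle_right (p j) z q
      have h3 : κ * t ≤ t := by nlinarith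
      linarith [(hp j).2]
    · intro b hb
      have := hf2 j c _ _ hc hc0 hd e he (by rw [hcz]; exact hze) v hv b (by rwa [hcz])
      rw [hcz] at this
      rw [this, hE]
      have h4 : (0 : ℝ) ≤ ((n : ℝ) - 1) * k ^ 2 := by
        have : (3 : ℝ) ≤ n := by exact_mod_cast hn
        apply mul_nonneg
        · linarith
        · positivity
      linarith [hfz j]
  choose c v hd0 hdt hc hc0 hcz hv hv1 hric using hdata
  have hfin : L + 1 ≤ L := by
    refine H329.ptLin hκ hL hE (sq_nonneg k) hka hsec hscal he (e.map_source hze) (L + 1) v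
      (fun j => dist (p j) z) t ht0 hv1 (fun j => ⟨(hd0 j).le, hdt j⟩) hric ?_
    intro i j hij
    have hrev : ∀ j, MinGeo (fun t => c j (dist (p j) z - t)) 0 (dist (p j) z) :=
      fun j => MinGeo.rev (hc j)
    have hrv : ∀ j, HasDerivWithinAt (fun t => e (c j (dist (p j) z - t))) (-v j)
        (Icc 0 (dist (p j) z)) 0 := by
      intro j
      have h5 : HasDerivAt (fun t => e (c j t)) (v j) (dist (p j) z - 0) := by
        rw [sub_zero]; exact hv j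
      exact (h5.comp_const_sub (dist (p j) z) 0).hasDerivWithinAt
    have h0 : ∀ j, c j (dist (p j) z - 0) = z := fun j => by
      rw [sub_zero]; exact hcz j
    have hh := H329.hinge (hJET E M).2.2.1 hε hhin (hd0 i) (by linarith [hdt i, ht.2]) (hd0 j)
      (by linarith [hdt j, ht.2]) (hrev i) (hrev j) he (by simp only [h0]; exact hze)
      ((h0 i).trans (h0 j).symm) (hrv i) (hrv j)
      (by simp only [h0, map_neg, neg_apply, neg_neg]; exact hv1 i)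
      (by simp only [h0, map_neg, neg_apply, neg_neg]; exact hv1 j)
    simp only [sub_zero, hcz, sub_self, hc0] at hh
    have h6 : dist (p i) z • -v i - dist (p j) z • -v j =
        -(dist (p i) z • v i - dist (p j) z • v j) := by
      simp only [smul_neg]; abel
    rw [h6] at hh
    set u := dist (p i) z • v i - dist (p j) z • v j with hu
    have h7 : chartG e (e z) (-u) (-u) = chartG e (e z) u u := by simp
    rw [h7] at hh
    have h8 : (κ * t) ^ 2 ≤ dist (p i) (p j) ^ 2 :=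
      pow_le_pow_left₀ hκt.le (hsep i j hij) 2
    apply Real.le_sqrt_of_sq_le
    have h9 : (κ * t) ^ 2 ≤ (1 + ε) * chartG e (e z) u u := h8.trans hh
    have h10 : 0 ≤ chartG e (e z) u u := by
      by_contra hneg
      push Not at hneg
      have : (1 + ε) * chartG e (e z) u u < 0 := mul_neg_of_pos_of_neg (by linarith) hneg
      linarith [sq_nonneg (κ * t)]
    have h11 : (1 + ε) * chartG e (e z) u u ≤ 4 * chartG e (e z) u u :=
      mul_le_mul_of_nonneg_right (by linarith) h10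
    calc (κ * t / 2) ^ 2 = (κ * t) ^ 2 / 4 := by ring
      _ ≤ chartG e (e z) u u := by linarith
  omega

/-- ONE, from the other modules -/
theorem one_of (hLIN : Stmt.LIN) (hCMP : Stmt.CMP) (hHESS : Stmt.HESS) (hGEO : Stmt.GEO)
    (hJET : Stmt.JET) (hRICF : Stmt.RICF) (hSVI : Stmt.SVI) : Stmt.ONE := by
  intro n hn
  obtain ⟨κ, hκ, hκ8, L, hLκ, a, ha, hlin⟩ := hLIN n hn
  obtain ⟨θ, hθ, hθ8, ε, hε, hε8, C, hC, hmeas⟩ := meas n (L + 1) κ hκ (by linarith)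
  obtain ⟨τ, hτ, hcmp⟩ := hCMP ε hε
  have hn0 : (0 : ℝ) < n := by
    have : (3 : ℝ) ≤ n := by exact_mod_cast hn
    linarith
  refine ⟨κ, hκ, hκ8, L + 1, by push_cast; exact hLκ, 1 + 64 * n * C / (θ * κ ^ 2 * a),
    by positivity, fun T hT => ?_⟩
  set T₀ : ℝ := 1 + 64 * n * C / (θ * κ ^ 2 * a) with hT₀def
  have hT₀1 : 1 ≤ T₀ := by rw [hT₀def]; linarith [show 0 < 64 * n * C / (θ * κ ^ 2 * a) by positivity]
  have hT₀0 : 0 < T₀ := by linarith
  have hT0 : 0 < T := hT₀0.trans_le hT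
  have hT₀C : C * (32 * n / (θ * κ ^ 2 * T₀ ^ 2)) ≤ a / 2 := by
    have h1 : 64 * n * C / (θ * κ ^ 2 * a) ≤ T₀ ^ 2 := by
      have h2 : T₀ ≤ T₀ ^ 2 := by nlinarith
      have h3 : 64 * n * C / (θ * κ ^ 2 * a) ≤ T₀ := by rw [hT₀def]; linarith
      linarith
    rw [div_le_iff₀ (by positivity)] at h1
    rw [mul_div_assoc', div_le_div_iff₀ (by positivity) (by norm_num)]
    calc C * (32 * ↑n) * 2 = 64 * n * C := by ring
      _ ≤ T₀ ^ 2 * (θ * κ ^ 2 * a) := h1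
      _ = _ := by ring
  obtain ⟨k, hk, hk1, hkτ, hka, hkC⟩ : ∃ k : ℝ, 0 < k ∧ k ≤ 1 ∧ k * (8 * T) ≤ τ ∧ k ≤ a ∧
      C * (5 * n * k * θ) ≤ a / 2 := by
    refine ⟨min (min 1 (τ / (8 * T))) (min a (a / (10 * C * n * θ))), by positivity, ?_, ?_, ?_, ?_⟩
    · exact (min_le_left _ _).trans (min_le_left _ _)
    · rw [← le_div_iff₀ (by positivity)]
      exact (min_le_left _ _).trans (min_le_right _ _)
    · exact (min_le_right _ _).trans (min_le_left _ _)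
    · have h1 : min (min 1 (τ / (8 * T))) (min a (a / (10 * C * n * θ))) ≤ a / (10 * C * n * θ) :=
        (min_le_right _ _).trans (min_le_right _ _)
      rw [le_div_iff₀ (by positivity)] at h1
      linarith
  have hk2 : k ^ 2 ≤ k := by nlinarith
  refine ⟨k ^ 2, by positivity, ?_⟩
  intro E _ _ _ M _ _ _ _ _ _ hE hcomp hsec hscal t ht q s hs hsep
  by_contra hcard
  push Not at hcard
  have ht0 : 0 < t := hT₀0.trans_le ht.1
  have hκt : 0 < κ * t := mul_pos hκ ht0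
  classical
  set s' : Finset M := s.filter (fun x => κ * t / 2 ≤ dist x q) with hs'
  have hcompl : (s.filter (fun x => ¬ κ * t / 2 ≤ dist x q)).card ≤ 1 := by
    rw [Finset.card_le_one]
    intro x hx y hy
    rw [Finset.mem_filter] at hx hy
    by_contra hxy
    have h1 := hsep x hx.1 y hy.1 hxy
    have h2 := dist_triangle_right x y q
    linarith [not_le.1 hx.2, not_le.1 hy.2]
  have hcard' : L + 1 ≤ s'.card := by
    have h5 : s'.card + (s.filter (fun x => ¬ κ * t / 2 ≤ dist x q)).card = s.card := by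
      rw [hs']
      exact Finset.card_filter_add_card_filter_not _
    omega
  obtain ⟨s'', hs'', hc''⟩ := Finset.exists_subset_card_eq hcard'
  let φ : Fin (L + 1) ≃ s'' := (Finset.equivFinOfCardEq hc'').symm
  have hmem : ∀ j, ((φ j : M) ∈ s ∧ κ * t / 2 ≤ dist (φ j : M) q) := by
    intro j
    have := hs'' (φ j).2
    rwa [hs', Finset.mem_filter] at this
  refine one_core hHESS hGEO hJET hRICF hSVI hn hκ hκ8 hlin hθ hθ8 hε hε8 hmeas hcmp hT₀0
    hT₀C hk hkτ (hk2.trans hka) ?_ E M hE hsec hscal ht q (fun j => (φ j : M))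
    (fun j => ⟨(hmem j).2, hs _ (hmem j).1⟩) ?_
  · refine le_trans ?_ hkC
    gcongr
  · intro i j hij
    refine hsep _ (hmem i).1 _ (hmem j).1 ?_
    intro h
    exact hij (φ.injective (Subtype.ext h))

end Vale.Agent.P210.R2.H582
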