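import Vale.Agent.P210.R2.H53.SpecR

/-!
Preparations for the one scale lemma: connectedness, minimal geodesics, gluing,
the hypothesis of the comparison theorem, the integral hypothesis.
-/

open scoped Manifold ContDiff Topology Bundle
open Set Metric Filter Bundle IsManifold MeasureTheory Manifold Asymptotics

set_option maxSynthPendingDepth 3

noncomputable section

namespace Vale.Agent.P210.R2.H582

open Vale.Agent.P210.R2.H53

section geo

variable {X : Type*} [MetricSpace X]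

theorem MinGeo.rev {c : ℝ → X} {ℓ : ℝ} (h : MinGeo c 0 ℓ) : MinGeo (fun t => c (ℓ - t)) 0 ℓ := by
  intro s hs t ht
  have := h (ℓ - s) ⟨by linarith [hs.2], by linarith [hs.1]⟩ (ℓ - t)
    ⟨by linarith [ht.2], by linarith [ht.1]⟩
  simp only
  rw [this]
  rw [show ℓ - s - (ℓ - t) = -(s - t) by ring, abs_neg]

theorem MinGeo.mono' {c : ℝ → X} {a b a' b' : ℝ} (h : MinGeo c a b) (ha : a ≤ a') (hb : b' ≤ b) :
    MinGeo c a' b' := fun s hs t ht =>
  h s ⟨ha.trans hs.1, hs.2.trans hb⟩ t ⟨ha.trans ht.1, ht.2.trans hb⟩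

theorem MinGeo.continuousOn {c : ℝ → X} {a b : ℝ} (h : MinGeo c a b) :
    ContinuousOn c (Icc a b) := by
  have : LipschitzOnWith 1 c (Icc a b) := by
    apply LipschitzOnWith.of_dist_le_mul
    intro x hx y hy
    rw [h x hx y hy, Real.dist_eq]
    simp
  exact this.continuousOn

/-- gluing two minimal geodesics -/
theorem MinGeo.glue {c₁ c₂ : ℝ → X} {a b : ℝ} (ha : 0 ≤ a) (hb : 0 ≤ b) (h₁ : MinGeo c₁ 0 a)
    (h₂ : MinGeo c₂ 0 b) (h12 : c₁ a = c₂ 0) (hd : dist (c₁ 0) (c₂ b) = a + b) :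
    MinGeo (fun t => if t ≤ a then c₁ t else c₂ (t - a)) 0 (a + b) := by
  -- crossing pairs
  have key : ∀ s ∈ Icc (0 : ℝ) a, ∀ t ∈ Icc (0 : ℝ) b, dist (c₁ s) (c₂ t) = a - s + t := by
    intro s hs t ht
    apply le_antisymm
    · calc dist (c₁ s) (c₂ t) ≤ dist (c₁ s) (c₁ a) + dist (c₂ 0) (c₂ t) := by
            rw [← h12]; exact dist_triangle _ _ _
        _ = a - s + t := by
            rw [h₁ s hs a ⟨ha, le_rfl⟩, h₂ 0 ⟨le_rfl, hb⟩ t ht, abs_of_nonpos (by linarith [hs.2]),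
              abs_of_nonpos (by linarith [ht.1])]
            ring
    · have e1 : dist (c₁ 0) (c₁ s) = s := by
        rw [h₁ 0 ⟨le_rfl, ha⟩ s hs, abs_of_nonpos (by linarith [hs.1])]; ring
      have e2 : dist (c₂ t) (c₂ b) = b - t := by
        rw [h₂ t ht b ⟨hb, le_rfl⟩, abs_of_nonpos (by linarith [ht.2])]; ring
      have := dist_triangle4 (c₁ 0) (c₁ s) (c₂ t) (c₂ b)
      rw [hd, e1, e2] at this
      linarith
  intro s hs t ht
  simp only
  split_ifs with h3 h4 h4
  · exact h₁ s ⟨hs.1, h3⟩ t ⟨ht.1, h4⟩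
  · rw [key s ⟨hs.1, h3⟩ (t - a) ⟨by linarith, by linarith [ht.2]⟩,
      abs_of_nonpos (by linarith)]
    ring
  · rw [dist_comm, key t ⟨ht.1, h4⟩ (s - a) ⟨by linarith, by linarith [hs.2]⟩,
      abs_of_nonneg (by linarith)]
    ring
  · rw [h₂ (s - a) ⟨by linarith, by linarith [hs.2]⟩ (t - a) ⟨by linarith, by linarith [ht.2]⟩]
    congr 1
    ring

/-- existence of all minimal geodesics -/
def AllGeo (X : Type*) [MetricSpace X] : Prop :=
  ∀ x y : X, ∃ c : ℝ → X, MinGeo c 0 (dist x y) ∧ c 0 = x ∧ c (dist x y) = y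

theorem AllGeo.frac (h : AllGeo X) (x y : X) {s : ℝ} (hs : s ∈ Icc (0 : ℝ) 1) :
    ∃ z, dist x z = s * dist x y ∧ dist z y = (1 - s) * dist x y := by
  obtain ⟨c, hc, h0, h1⟩ := h x y
  have hd : 0 ≤ dist x y := dist_nonneg
  have hs' : s * dist x y ∈ Icc 0 (dist x y) :=
    ⟨mul_nonneg hs.1 hd, mul_le_of_le_one_left hd hs.2⟩
  refine ⟨c (s * dist x y), ?_, ?_⟩
  · have := hc 0 ⟨le_rfl, hd⟩ _ hs'
    rw [h0] at this
    rw [this, abs_of_nonpos (by linarith [hs'.1])]
    ring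
  · have := hc _ hs' (dist x y) ⟨hd, le_rfl⟩
    rw [h1] at this
    rw [this, abs_of_nonpos (by linarith [hs'.2])]
    ring

/-- a minimal geodesic from `p` to `w` through a given point of a minimal segment -/
theorem AllGeo.through (h : AllGeo X) {p w z : X} {s : ℝ} (hs : s ∈ Icc (0 : ℝ) 1)
    (h1 : dist p z = s * dist p w) (h2 : dist z w = (1 - s) * dist p w) :
    ∃ c : ℝ → X, MinGeo c 0 (dist p w) ∧ c 0 = p ∧ c (dist p w) = w ∧ c (dist p z) = z := by
  obtain ⟨c₁, hc₁, h10, h11⟩ := h p z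
  obtain ⟨c₂, hc₂, h20, h21⟩ := h z w
  have hsum : dist p z + dist z w = dist p w := by rw [h1, h2]; ring
  have hg := MinGeo.glue dist_nonneg dist_nonneg hc₁ hc₂ (h11.trans h20.symm)
    (by rw [h10, h21, hsum])
  rw [hsum] at hg
  refine ⟨_, hg, ?_, ?_, ?_⟩
  · simp only [dist_nonneg, if_true]; exact h10
  · show (if dist p w ≤ dist p z then c₁ (dist p w) else c₂ (dist p w - dist p z)) = w
    split_ifs with h3
    · have h4 : dist z w = 0 := le_antisymm (by linarith) dist_nonneg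
      have h5 : z = w := dist_eq_zero.1 h4
      have h6 : dist p w = dist p z := by rw [h5]
      rw [h6, h11, h5]
    · rw [show dist p w - dist p z = dist z w by linarith, h21]
  · simp only [le_refl, if_true]; exact h11

end geo

section riem

theorem connectedSpace_of_riem (E : Type) [NormedAddCommGroup E] [NormedSpace ℝ E]
    (M : Type) [MetricSpace M] [ChartedSpace E M]
    [RiemannianBundle (fun x : M => TangentSpace 𝓘(ℝ, E) x)]
    [IsRiemannianManifold 𝓘(ℝ, E) M] [Nonempty M] : ConnectedSpace M := by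
  have : PreconnectedSpace M := by
    constructor
    apply isPreconnected_of_forall_pair
    intro x _ y _
    have hlt : riemannianEDist 𝓘(ℝ, E) x y < ⊤ := by
      rw [← IsRiemannianManifold.out (I := 𝓘(ℝ, E))]
      exact edist_lt_top x y
    obtain ⟨γ, hγ0, hγ1, hγ, -⟩ := exists_lt_of_riemannianEDist_lt hlt
    refine ⟨γ '' Icc 0 1, subset_univ _, ⟨0, by simp, hγ0⟩, ⟨1, by simp, hγ1⟩, ?_⟩
    exact isPreconnected_Icc.image _ hγ.continuousOn
  exact { toNonempty := inferInstance }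

theorem allGeo_of_GEO (hGEO : Stmt.GEO) (E : Type) [NormedAddCommGroup E] [NormedSpace ℝ E]
    [FiniteDimensional ℝ E] (M : Type) [MetricSpace M] [ChartedSpace E M]
    [RiemannianBundle (fun x : M => TangentSpace 𝓘(ℝ, E) x)]
    [IsManifold 𝓘(ℝ, E) ∞ M]
    [IsContMDiffRiemannianBundle 𝓘(ℝ, E) ∞ E (fun x : M => TangentSpace 𝓘(ℝ, E) x)]
    [IsRiemannianManifold 𝓘(ℝ, E) M] [CompleteSpace M] [Nonempty M] : AllGeo M :=
  ((hGEO E M).1 inferInstance (connectedSpace_of_riem E M)).2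

end riem

end Vale.Agent.P210.R2.H582
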