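import Vale.Agent.P210.R2.H582.OneA

/-!
The hypothesis of the metric comparison theorem (CMP) holds on a complete manifold with
curvature bounded below.
-/

open scoped Manifold ContDiff Topology Bundle
open Set Metric Filter Bundle IsManifold MeasureTheory Manifold Asymptotics

set_option maxSynthPendingDepth 3

noncomputable section

namespace Vale.Agent.P210.R2.H582

open Vale.Agent.P210.R2.H53

section

variable {E : Type} [NormedAddCommGroup E] [NormedSpace ℝ E]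
    {M : Type} [MetricSpace M] [ChartedSpace E M]
    [RiemannianBundle (fun x : M => TangentSpace 𝓘(ℝ, E) x)]

theorem chartG_cs (e : OpenPartialHomeomorph M E) (z v w : E) :
    chartG e z v w ^ 2 ≤ chartG e z v v * chartG e z w w := by
  have := real_inner_mul_inner_self_le
    (mfderiv 𝓘(ℝ, E) 𝓘(ℝ, E) e.symm z v : TangentSpace 𝓘(ℝ, E) (e.symm z))
    (mfderiv 𝓘(ℝ, E) 𝓘(ℝ, E) e.symm z w : TangentSpace 𝓘(ℝ, E) (e.symm z))
  rw [sq]
  exact this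

theorem geoAt_shift {e : OpenPartialHomeomorph M E} {w w' : ℝ → E} {s₀ t : ℝ}
    (h : GeoAt e w w' (s₀ + t)) : GeoAt e (fun r => w (s₀ + r)) (fun r => w' (s₀ + r)) t :=
  ⟨h.1.comp_const_add s₀ t, h.2.1.comp_const_add s₀ t, h.2.2.1, h.2.2.2⟩

end

theorem cmp_hyp (hGEO : Stmt.GEO) (hJET : Stmt.JET) (hHESS : Stmt.HESS)
    (E : Type) [NormedAddCommGroup E] [NormedSpace ℝ E]
    [FiniteDimensional ℝ E] (M : Type) [MetricSpace M] [ChartedSpace E M]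
    [RiemannianBundle (fun x : M => TangentSpace 𝓘(ℝ, E) x)]
    [IsManifold 𝓘(ℝ, E) ∞ M]
    [IsContMDiffRiemannianBundle 𝓘(ℝ, E) ∞ E (fun x : M => TangentSpace 𝓘(ℝ, E) x)]
    [IsRiemannianManifold 𝓘(ℝ, E) M] (hgeo : AllGeo M)
    {κ : ℝ} (hκ : 0 < κ) (hsec : SecGE E M (-κ ^ 2)) (q : M) (c : ℝ → M) (a b s₀ : ℝ)
    (hc : MinGeo c a b) (hs₀ : s₀ ∈ Ioo a b) (hq : q ≠ c s₀) :
    ∃ α : ℝ, |α| ≤ 1 ∧
      (∀ η > 0, ∀ᶠ r in 𝓝[>] (0 : ℝ), dist q (c (s₀ + r)) + dist q (c (s₀ - r)) ≤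
        2 * dist q (c s₀) +
          r ^ 2 * ((1 / dist q (c s₀) + κ ^ 2 * dist q (c s₀)) * (1 - α ^ 2) + η)) ∧
      ∃ C : ℝ, ∀ᶠ r in 𝓝 (0 : ℝ), dist q (c (s₀ + r)) ≤ dist q (c s₀) + r * α + C * r ^ 2 := by
  set e : OpenPartialHomeomorph M E := chartAt E (c s₀) with he_def
  have he : e ∈ maximalAtlas 𝓘(ℝ, E) ∞ M := chart_mem_maximalAtlas (c s₀)
  have hce : c s₀ ∈ e.source := mem_chart_source E (c s₀)
  -- geodesic from q
  obtain ⟨g, hg, hg0, hg1⟩ := hgeo q (c s₀)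
  have hℓ : 0 < dist q (c s₀) := dist_pos.2 hq
  obtain ⟨bb, hbb, -, hB⟩ := hHESS E M κ hκ hsec g (dist q (c s₀)) hℓ hg e he (by rw [hg1]; exact hce)
  rw [hg1, hg0] at hB
  rw [hg1] at hbb
  -- the curve c in the chart
  obtain ⟨δ, hδ, w, w', hw, hcw⟩ := (hGEO E M).2.1 c a b s₀ (hs₀.1.trans hs₀.2) hc
    ⟨hs₀.1.le, hs₀.2.le⟩ e he hce
  have hws : w s₀ = e (c s₀) := (hcw s₀ ⟨hs₀.1.le, hs₀.2.le⟩ (by simpa using hδ)).2.symm
  have hgeoAt : ∀ᶠ t in 𝓝 (0 : ℝ), GeoAt e (fun r => w (s₀ + r)) (fun r => w' (s₀ + r)) t := by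
    filter_upwards [Metric.ball_mem_nhds (0 : ℝ) hδ] with t ht
    exact geoAt_shift (hw (s₀ + t) (by simpa using ht))
  have hjet := (hJET E M).2.2.2 e he _ _ hgeoAt
  simp only [add_zero] at hjet
  have hv1 : chartG e (w s₀) (w' s₀) (w' s₀) = 1 := (hw s₀ (by simpa using hδ)).2.2.2
  rw [hws] at hjet hv1
  -- c near s₀
  have hnear : ∀ᶠ r in 𝓝 (0 : ℝ), e.symm (w (s₀ + r)) = c (s₀ + r) := by
    have h1 : ∀ᶠ r in 𝓝 (0 : ℝ), s₀ + r ∈ Ioo a b := by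
      have : Tendsto (fun r : ℝ => s₀ + r) (𝓝 0) (𝓝 (s₀ + 0)) :=
        (continuous_const.add continuous_id).tendsto 0
      rw [add_zero] at this
      exact this.eventually (Ioo_mem_nhds hs₀.1 hs₀.2)
    filter_upwards [Metric.ball_mem_nhds (0 : ℝ) hδ, h1] with r hr hr1
    have h2 := hcw (s₀ + r) ⟨hr1.1.le, hr1.2.le⟩ (by simpa using hr)
    rw [← h2.2, e.left_inv h2.1]
  have hneg : ∀ᶠ r in 𝓝[>] (0 : ℝ), e.symm (w (s₀ + -r)) = c (s₀ - r) := by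
    have : Tendsto (fun r : ℝ => -r) (𝓝[>] 0) (𝓝 0) := by
      have h : Tendsto (fun r : ℝ => -r) (𝓝 0) (𝓝 (-0)) := continuous_neg.tendsto 0
      rw [neg_zero] at h
      exact h.mono_left nhdsWithin_le_nhds
    have h2 := this.eventually hnear
    filter_upwards [h2] with r hr
    rw [hr]; rfl
  obtain ⟨hS, hF⟩ := hB (w' s₀)
  set α : ℝ := chartG e (e (c s₀)) bb (w' s₀) with hα
  have hα1 : α ^ 2 ≤ 1 := by
    have := chartG_cs e (e (c s₀)) bb (w' s₀)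
    rwa [hbb, hv1, one_mul] at this
  refine ⟨α, (sq_le_one_iff_abs_le_one α).1 hα1, ?_, ?_⟩
  · intro η hη
    have h3 := hS _ hjet η hη
    filter_upwards [h3, hneg, hnear.filter_mono nhdsWithin_le_nhds] with r h3 h4 h5
    rw [h4, h5, e.left_inv hce, hv1] at h3
    exact h3
  · obtain ⟨C, hC⟩ := hF _ hjet
    refine ⟨C, ?_⟩
    filter_upwards [hC, hnear] with r h3 h5
    rw [h5, e.left_inv hce] at h3
    exact h3

end Vale.Agent.P210.R2.H582
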